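import Vale.Agent.Lib.P170.Ops

/-! Clause combinatorics: killing sets, counting, decomposition in the last variable. -/

set_option linter.unusedSectionVars false

namespace Vale.Agent.Lib.P170

open Finset

open Classical

variable {n k j : ℕ}

/-- The set of assignments making a clause true. -/
noncomputable def solSet (c : ProperClause n k) : Finset (Fin n → Bool) :=
  univ.filter (fun a => c.Holds a)

/-- Literals that are false on all of `S`. -/
noncomputable def deadLits (S : Finset (Fin n → Bool)) : Finset (Fin n × Bool) :=
  univ.filter (fun l => ∀ a ∈ S, a l.1 ≠ l.2)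

lemma mem_deadLits {S : Finset (Fin n → Bool)} {l : Fin n × Bool} :
    l ∈ deadLits S ↔ ∀ a ∈ S, a l.1 ≠ l.2 := by
  simp [deadLits]

lemma dead_noclash {S : Finset (Fin n → Bool)} (hS : S.Nonempty) (i : Fin n) :
    ¬ ((i, true) ∈ deadLits S ∧ (i, false) ∈ deadLits S) := by
  rintro ⟨h1, h2⟩
  obtain ⟨a, ha⟩ := hS
  have h3 := mem_deadLits.mp h1 a ha
  have h4 := mem_deadLits.mp h2 a ha
  cases h : a i <;> simp_all

lemma card_dead_le {S : Finset (Fin n → Bool)} (hS : S.Nonempty) : (deadLits S).card ≤ n := by
  have h : Set.InjOn (fun l : Fin n × Bool => l.1) (deadLits S : Set (Fin n × Bool)) := by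
    rintro ⟨i, b⟩ h1 ⟨i', b'⟩ h2 h3
    simp only at h3
    subst h3
    have h1' : (i, b) ∈ deadLits S := h1
    have h2' : (i, b') ∈ deadLits S := h2
    rcases b with _ | _ <;> rcases b' with _ | _
    · rfl
    · exact absurd ⟨h2', h1'⟩ (dead_noclash hS i)
    · exact absurd ⟨h1', h2'⟩ (dead_noclash hS i)
    · rfl
  have := Finset.card_le_card_of_injOn _ (fun l _ => Finset.mem_univ (l.1)) h
  simpa using this

lemma dead_anti {S T : Finset (Fin n → Bool)} (h : S ⊆ T) : deadLits T ⊆ deadLits S := by
  intro l hl
  rw [mem_deadLits] at hl ⊢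
  exact fun a ha => hl a (h ha)

lemma inter_solSet_empty_iff {S : Finset (Fin n → Bool)} {c : ProperClause n k} :
    S ∩ solSet c = ∅ ↔ c.1 ⊆ deadLits S := by
  constructor
  · intro h l hl
    rw [mem_deadLits]
    intro a ha hal
    have : a ∈ S ∩ solSet c := by
      rw [Finset.mem_inter]
      refine ⟨ha, ?_⟩
      simp only [solSet, Finset.mem_filter, Finset.mem_univ, true_and]
      exact ⟨l, hl, hal⟩
    rw [h] at this
    simp at this
  · intro h
    ext a
    simp only [Finset.mem_inter, Finset.notMem_empty, iff_false, not_and]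
    intro ha hc
    simp only [solSet, Finset.mem_filter, Finset.mem_univ, true_and] at hc
    obtain ⟨l, hl, hal⟩ := hc
    exact mem_deadLits.mp (h hl) a ha hal

/-- The number of clauses killing a nonempty set. -/
lemma card_killers {S : Finset (Fin n → Bool)} (hS : S.Nonempty) (j : ℕ) :
    (univ.filter (fun c : ProperClause n j => c.1 ⊆ deadLits S)).card
      = ((deadLits S).card).choose j := by
  rw [← Finset.card_powersetCard]
  refine Finset.card_bij (fun c _ => c.1) ?_ ?_ ?_
  · intro c hc
    simp only [Finset.mem_filter, Finset.mem_univ, true_and] at hc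
    exact Finset.mem_powersetCard.mpr ⟨hc, c.2.1⟩
  · intro c _ c' _ h
    exact Subtype.ext h
  · intro s hs
    rw [Finset.mem_powersetCard] at hs
    exact ⟨⟨s, hs.2, fun i hi => dead_noclash hS i ⟨hs.1 hi.1, hs.1 hi.2⟩⟩,
      Finset.mem_filter.mpr ⟨Finset.mem_univ _, hs.1⟩, rfl⟩

/-- The value of averaging the indicator over one clause. -/
lemma op_nonemptyInd {S : Finset (Fin n → Bool)} (hS : S.Nonempty) (j : ℕ)
    (hc : 0 < Fintype.card (ProperClause n j)) :
    op (solSet : ProperClause n j → _) nonemptyInd S
      = 1 - (((deadLits S).card).choose j : ℝ) / Fintype.card (ProperClause n j) := by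
  have hc' : (0:ℝ) < Fintype.card (ProperClause n j) := by exact_mod_cast hc
  unfold op
  have h1 : ∀ c : ProperClause n j, nonemptyInd (S ∩ solSet c)
      = 1 - (if c.1 ⊆ deadLits S then (1:ℝ) else 0) := by
    intro c
    unfold nonemptyInd
    by_cases h : c.1 ⊆ deadLits S
    · have h' := inter_solSet_empty_iff.mpr h
      simp [h, h']
    · have h' : ¬ (S ∩ solSet c = ∅) := fun h'' => h (inter_solSet_empty_iff.mp h'')
      rw [if_neg h, if_pos (Finset.nonempty_iff_ne_empty.mpr h')]
      simp
  simp only [h1, Finset.sum_sub_distrib]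
  rw [Finset.sum_boole, card_killers hS j]
  simp only [Finset.sum_const, Finset.card_univ, nsmul_eq_mul, mul_one]
  field_simp

/-- Killing bound: with many dead literals, each clause kills with probability at least `p`. -/
lemma iter_kill_bound (b₀ t : ℕ) (p : ℝ) (hp0 : 0 ≤ p) (hp1 : p ≤ 1)
    (hc : 0 < Fintype.card (ProperClause n k))
    (hp : p * Fintype.card (ProperClause n k) ≤ (b₀.choose k : ℝ))
    (S : Finset (Fin n → Bool)) (hS : b₀ ≤ (deadLits S).card) :
    ((op (solSet : ProperClause n k → _))^[t] nonemptyInd) S ≤ (1 - p) ^ t := by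
  have hc' : (0:ℝ) < Fintype.card (ProperClause n k) := by exact_mod_cast hc
  induction t generalizing S with
  | zero =>
    simp only [Function.iterate_zero, id, pow_zero]
    exact valid_nonemptyInd.le_one S
  | succ t ih =>
    rw [Function.iterate_succ_apply']
    set g := (op (solSet : ProperClause n k → _))^[t] nonemptyInd with hg
    have hgv : Valid g := iter_valid _ hc valid_nonemptyInd t
    have h1p : 0 ≤ 1 - p := by linarith
    by_cases hSne : S.Nonempty
    · unfold op
      rw [div_le_iff₀ hc']
      have hterm : ∀ c : ProperClause n k, g (S ∩ solSet c)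
          ≤ (1 - p) ^ t * (1 - if c.1 ⊆ deadLits S then (1:ℝ) else 0) := by
        intro c
        by_cases h : c.1 ⊆ deadLits S
        · have h' := inter_solSet_empty_iff.mpr h
          rw [h', hgv.empty]
          simp [h]
        · rw [if_neg h]
          simp only [sub_zero, mul_one]
          apply ih
          exact hS.trans (Finset.card_le_card (dead_anti Finset.inter_subset_left))
      calc ∑ c, g (S ∩ solSet c)
          ≤ ∑ c : ProperClause n k, (1 - p) ^ t * (1 - if c.1 ⊆ deadLits S then (1:ℝ) else 0) :=
            Finset.sum_le_sum fun c _ => hterm c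
        _ = (1 - p) ^ t * (Fintype.card (ProperClause n k)
              - (((deadLits S).card).choose k : ℝ)) := by
            rw [← Finset.mul_sum, Finset.sum_sub_distrib, Finset.sum_boole, card_killers hSne k]
            simp
        _ ≤ (1 - p) ^ t * (Fintype.card (ProperClause n k)
              - p * Fintype.card (ProperClause n k)) := by
            apply mul_le_mul_of_nonneg_left _ (pow_nonneg h1p _)
            have : (b₀.choose k : ℝ) ≤ (((deadLits S).card).choose k : ℝ) := by
              exact_mod_cast Nat.choose_le_choose k hS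
            linarith
        _ = (1 - p) ^ (t + 1) * Fintype.card (ProperClause n k) := by ring
    · have hS0 : S = ∅ := Finset.not_nonempty_iff_eq_empty.mp hSne
      subst hS0
      have : op (solSet : ProperClause n k → _) g ∅ = 0 := (op_valid _ hc hgv).empty
      rw [this]
      exact pow_nonneg h1p _

/-- The pointwise comparison between one shorter clause and many longer clauses. -/
lemma star_ineq (b₀ t : ℕ) (p η : ℝ) (hp0 : 0 ≤ p) (hp1 : p ≤ 1) (hη : 0 ≤ η)
    (hck : 0 < Fintype.card (ProperClause n k)) (hcj : 0 < Fintype.card (ProperClause n j))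
    (hp : p * Fintype.card (ProperClause n k) ≤ (b₀.choose k : ℝ))
    (hpt : (1 - p) ^ t ≤ 1 / 2)
    (hsmall : ∀ b, b < b₀ → b ≤ n → (b.choose j : ℝ) ≤ η * Fintype.card (ProperClause n j))
    (S : Finset (Fin n → Bool)) :
    2 * ((op (solSet : ProperClause n k → _))^[t] nonemptyInd) S ≤
      op (solSet : ProperClause n j → _) nonemptyInd S + nonemptyInd S + η := by
  have hcj' : (0:ℝ) < Fintype.card (ProperClause n j) := by exact_mod_cast hcj
  have hv := iter_valid (solSet : ProperClause n k → _) hck valid_nonemptyInd t
  have hvB := op_valid (solSet : ProperClause n j → _) hcj valid_nonemptyInd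
  by_cases hS : S.Nonempty
  · have he : nonemptyInd S = 1 := by simp [nonemptyInd, hS]
    rw [he]
    by_cases hb : b₀ ≤ (deadLits S).card
    · have := iter_kill_bound b₀ t p hp0 hp1 hck hp S hb
      have h2 := hvB.nonneg S
      linarith
    · push Not at hb
      have h1 := hsmall _ hb (card_dead_le hS)
      have h2 := op_nonemptyInd hS j hcj
      have h3 := hv.le_one S
      have h4 : (((deadLits S).card).choose j : ℝ) / Fintype.card (ProperClause n j) ≤ η := by
        rw [div_le_iff₀ hcj']
        exact h1
      linarith
  · have hS0 : S = ∅ := Finset.not_nonempty_iff_eq_empty.mp hS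
    subst hS0
    rw [hv.empty, hvB.empty, valid_nonemptyInd.empty]
    linarith

end Vale.Agent.Lib.P170
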