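import Vale.Agent.Lib.P170.Step

/-! Comparison of consecutive variable numbers. -/

set_option linter.unusedSectionVars false

namespace Vale.Agent.Lib.P170

open Finset

open Classical

variable {n j : ℕ}

/-- Abbreviation: the averaging operator for `k`-clauses on `n` variables. -/
noncomputable abbrev opK (n k : ℕ) : (Finset (Fin n → Bool) → ℝ) → (Finset (Fin n → Bool) → ℝ) :=
  op (solSet : ProperClause n k → _)

lemma opK_isMk {k : ℕ} (h : k ≤ n) : IsMk (opK n k) := op_isMk _ (card_clause_pos h)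

lemma iterK_valid {k : ℕ} (h : k ≤ n) {g : Finset (Fin n → Bool) → ℝ} (hg : Valid g) (m : ℕ) :
    Valid ((opK n k)^[m] g) := iter_valid _ (card_clause_pos h) hg m

/-- Lower chain: the last-variable-true operator dominates a mixture. -/
lemma lower_chain (hn : j + 1 ≤ n) {q : ℝ}
    (hq : q = (Fintype.card (ProperClause n j) : ℝ) /
      Fintype.card (ProperClause (n + 1) (j + 1)))
    (S : Finset (Fin n → Bool)) (J m : ℕ) :
    ((opK n (j + 1))^[m] ((opK n j)^[J] nonemptyInd)) S * (1 - q * m / (J + 1))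
      ≤ (op (solExt : ProperClause (n + 1) (j + 1) → _))^[m] nonemptyInd S := by
  have hjn : j ≤ n := by omega
  have hcard : 0 < Fintype.card (ProperClause (n + 1) (j + 1)) := card_clause_pos (by omega)
  have hc2 : (0:ℝ) < Fintype.card (ProperClause (n + 1) (j + 1)) := by exact_mod_cast hcard
  have hc0 : (0:ℝ) < Fintype.card (ProperClause n (j + 1)) := by
    exact_mod_cast card_clause_pos hn
  have hc1 : (0:ℝ) < Fintype.card (ProperClause n j) := by
    exact_mod_cast card_clause_pos hjn
  set π₀ : ℝ := (Fintype.card (ProperClause n (j + 1)) : ℝ) /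
      Fintype.card (ProperClause (n + 1) (j + 1)) with hπ
  have hπq : π₀ + 2 * q = 1 := by
    rw [hπ, hq, ← card_sum n j]
    field_simp
  have hq0 : 0 ≤ q := by rw [hq]; positivity
  have hπ0 : 0 ≤ π₀ := by rw [hπ]; positivity
  set A := opK n (j + 1) with hA
  set B := opK n j with hB
  set T := op (solExt : ProperClause (n + 1) (j + 1) → _) with hT
  have hAk : IsMk A := opK_isMk hn
  have hBk : IsMk B := opK_isMk hjn
  have hTk : IsMk T := op_isMk _ hcard
  have hGv : ∀ a i, Valid (A^[a] (B^[i] nonemptyInd)) := fun a i =>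
    iterK_valid hn (iterK_valid hjn valid_nonemptyInd i) a
  have hAle : ∀ a i S', A (A^[a] (B^[i] nonemptyInd)) S' ≤ A^[a] (B^[i] nonemptyInd) S' :=
    fun a i S' => op_le_self _ (card_clause_pos hn) (hGv a i).mono S'
  have hBcomm : ∀ a i, B (A^[a] (B^[i] nonemptyInd)) = A^[a] (B^[i + 1] nonemptyInd) := by
    intro a i
    have h1 : Function.Commute B (A^[a]) := (op_comm _ _).iterate_right a
    rw [h1 (B^[i] nonemptyInd), Function.iterate_succ_apply']
  have hA1 : ∀ a i, A (A^[a] (B^[i] nonemptyInd)) = A^[a + 1] (B^[i] nonemptyInd) := by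
    intro a i
    rw [Function.iterate_succ_apply']
  -- pointwise lower bound of the mixture
  have hpt : ∀ a i S', (1 - q) * A^[a + 1] (B^[i] nonemptyInd) S'
      + q * A^[a + 1] (B^[i + 1] nonemptyInd) S' ≤ T (A^[a] (B^[i] nonemptyInd)) S' := by
    intro a i S'
    rw [hT, opExt_eq _ S' hn hπ hq]
    change _ ≤ π₀ * A (A^[a] (B^[i] nonemptyInd)) S' + q * (A^[a] (B^[i] nonemptyInd)) S'
      + q * B (A^[a] (B^[i] nonemptyInd)) S'
    rw [hBcomm, hA1]
    have h1 : A^[a + 1] (B^[i] nonemptyInd) S' ≤ A^[a] (B^[i] nonemptyInd) S' := by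
      rw [← hA1]; exact hAle a i S'
    have h2 : A^[a + 1] (B^[i + 1] nonemptyInd) S' ≤ A^[a] (B^[i + 1] nonemptyInd) S' := by
      rw [← hA1]; exact hAle a (i + 1) S'
    have h3 : 1 - q = π₀ + q := by linarith
    rw [h3]
    nlinarith [mul_le_mul_of_nonneg_left h1 hq0, mul_le_mul_of_nonneg_left h2 hq0]
  set V := A^[m] (B^[J] nonemptyInd) S with hV
  have hV0 : 0 ≤ V := (hGv m J).nonneg S
  have hBanti : ∀ i S', (B^[J] nonemptyInd) S' ≤ (B^[i] nonemptyInd) S' ∨ J < i := by
    intro i S'
    by_cases h : i ≤ J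
    · left
      exact iter_anti _ (card_clause_pos hjn) valid_nonemptyInd S' h
    · right; omega
  have hJ : (0:ℝ) < (J:ℝ) + 1 := by positivity
  have hmain : ∀ s a i : ℕ, a + s = m →
      V * (1 - (i + q * s) / (J + 1)) ≤ T^[s] (A^[a] (B^[i] nonemptyInd)) S := by
    intro s
    induction s with
    | zero =>
      intro a i h
      have ha : a = m := by omega
      subst ha
      simp only [Function.iterate_zero, id, Nat.cast_zero, mul_zero, add_zero]
      by_cases hi : i ≤ J
      · have h1 : V ≤ A^[a] (B^[i] nonemptyInd) S := by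
          apply (hAk.iterate a).mono
          intro S'
          exact iter_anti _ (card_clause_pos hjn) valid_nonemptyInd S' hi
        have h2 : (i:ℝ) / (J + 1) ≥ 0 := by positivity
        nlinarith
      · have h1 : (J:ℝ) + 1 ≤ i := by
          have : J + 1 ≤ i := by omega
          exact_mod_cast this
        have h2 : 1 ≤ (i:ℝ) / (J + 1) := by
          rw [le_div_iff₀ hJ]; linarith
        have h3 := (hGv a i).nonneg S
        nlinarith
    | succ s ih =>
      intro a i h
      rw [Function.iterate_succ_apply]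
      have hTs : IsMk (T^[s]) := hTk.iterate s
      have h1 := hTs.mono _ _ (hpt a i) S
      have h2 : (fun S' => (1 - q) * A^[a + 1] (B^[i] nonemptyInd) S'
            + q * A^[a + 1] (B^[i + 1] nonemptyInd) S')
          = fun S' => (fun S'' => (1 - q) * A^[a + 1] (B^[i] nonemptyInd) S'') S'
            + (fun S'' => q * A^[a + 1] (B^[i + 1] nonemptyInd) S'') S' := rfl
      rw [h2, hTs.add, hTs.smul, hTs.smul] at h1
      have h3 := ih (a + 1) i (by omega)
      have h4 := ih (a + 1) (i + 1) (by omega)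
      have hq1 : q ≤ 1 := by nlinarith
      have h5 := mul_le_mul_of_nonneg_left h3 (by linarith : 0 ≤ 1 - q)
      have h6 := mul_le_mul_of_nonneg_left h4 hq0
      refine le_trans ?_ h1
      refine le_trans (le_of_eq ?_) (add_le_add h5 h6)
      push_cast
      field_simp
      ring
  have := hmain m 0 0 (by omega)
  simp only [Function.iterate_zero, id, Nat.cast_zero, zero_add] at this
  exact this

/-- Upper chain. -/
lemma upper_chain (hn : j + 1 ≤ n) (J m : ℕ) (hJ : 1 ≤ J) :
    (op (solProj : ProperClause (n + 1) (j + 1) → _))^[m] nonemptyInd univ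
      ≤ satProb (j + 1) n (m - J) + m * (j + 1) / ((n + 1) * J) := by
  have hjn : j ≤ n := by omega
  have hcard : 0 < Fintype.card (ProperClause (n + 1) (j + 1)) := card_clause_pos (by omega)
  have hc2 : (0:ℝ) < Fintype.card (ProperClause (n + 1) (j + 1)) := by exact_mod_cast hcard
  have hc0 : (0:ℝ) < Fintype.card (ProperClause n (j + 1)) := by
    exact_mod_cast card_clause_pos hn
  have hc1 : (0:ℝ) < Fintype.card (ProperClause n j) := by
    exact_mod_cast card_clause_pos hjn
  set π₀ : ℝ := (Fintype.card (ProperClause n (j + 1)) : ℝ) /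
      Fintype.card (ProperClause (n + 1) (j + 1)) with hπ
  set q : ℝ := (Fintype.card (ProperClause n j) : ℝ) /
      Fintype.card (ProperClause (n + 1) (j + 1)) with hq
  have hπq : π₀ + 2 * q = 1 := by
    rw [hπ, hq, ← card_sum n j]
    field_simp
  have hq0 : 0 ≤ q := by rw [hq]; positivity
  have hπ0 : 0 ≤ π₀ := by rw [hπ]; positivity
  have hqv : q = (j + 1) / (2 * (n + 1)) := card_ratio n j (by omega)
  set A := opK n (j + 1) with hA
  set T := op (solProj : ProperClause (n + 1) (j + 1) → _) with hT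
  have hAk : IsMk A := opK_isMk hn
  have hTk : IsMk T := op_isMk _ hcard
  have hJ' : (0:ℝ) < J := by exact_mod_cast hJ
  set w₀ := satProb (j + 1) n (m - J) with hw
  have hw' : w₀ = A^[m - J] nonemptyInd univ := satProb_eq _ _ _
  have hw0 : 0 ≤ w₀ := by
    rw [hw']; exact (iterK_valid hn valid_nonemptyInd _).nonneg _
  have hT1 : ∀ G : Finset (Fin n → Bool) → ℝ,
      T G = fun S' => π₀ * A G S' + 2 * q * G S' := by
    intro G
    funext S'
    exact opProj_eq G S' hn hπ hq
  have hmain : ∀ s i : ℕ, i + s ≤ m →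
      T^[s] (A^[i] nonemptyInd) univ ≤ w₀ + ((m:ℝ) - i - π₀ * s) / J := by
    intro s
    induction s with
    | zero =>
      intro i h
      simp only [Function.iterate_zero, id, Nat.cast_zero, mul_zero, sub_zero]
      have hi : (i:ℝ) ≤ m := by
        have : i ≤ m := by omega
        exact_mod_cast this
      by_cases hc : m - J ≤ i
      · have h1 : A^[i] nonemptyInd univ ≤ w₀ := by
          rw [hw']
          exact iter_anti _ (card_clause_pos hn) valid_nonemptyInd univ hc
        have h2 : 0 ≤ ((m:ℝ) - i) / J := div_nonneg (by linarith) hJ'.le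
        linarith
      · have h1 : i + J ≤ m := by omega
        have h2 : (i:ℝ) + J ≤ m := by exact_mod_cast h1
        have h3 : 1 ≤ ((m:ℝ) - i) / J := by
          rw [le_div_iff₀ hJ']; linarith
        have h4 := (iterK_valid hn valid_nonemptyInd i).le_one univ
        linarith
    | succ s ih =>
      intro i h
      rw [Function.iterate_succ_apply, hT1]
      have hTs : IsMk (T^[s]) := hTk.iterate s
      have h2 : (fun S' => π₀ * A (A^[i] nonemptyInd) S' + 2 * q * (A^[i] nonemptyInd) S')
          = fun S' => (fun S'' => π₀ * (A^[i + 1] nonemptyInd) S'') S'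
            + (fun S'' => 2 * q * (A^[i] nonemptyInd) S'') S' := by
        funext S'
        rw [Function.iterate_succ_apply']
      rw [h2, hTs.add, hTs.smul, hTs.smul]
      have h3 := ih (i + 1) (by omega)
      have h4 := ih i (by omega)
      have h5 := mul_le_mul_of_nonneg_left h3 hπ0
      have h6 := mul_le_mul_of_nonneg_left h4 (by positivity : 0 ≤ 2 * q)
      refine le_trans (add_le_add h5 h6) (le_of_eq ?_)
      have h7 : 2 * q = 1 - π₀ := by linarith
      rw [h7]
      push_cast
      field_simp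
      ring
  have := hmain m 0 (by omega)
  simp only [Function.iterate_zero, id] at this
  refine this.trans (le_of_eq ?_)
  have h7 : π₀ = 1 - 2 * q := by linarith
  rw [h7, hqv]
  push_cast
  field_simp
  ring

/-- From `n + 1` variables down to `n` variables: drop the clauses touching the last variable. -/
theorem upper_step (hn : j + 1 ≤ n) (J m : ℕ) (hJ : 1 ≤ J) :
    satProb (j + 1) (n + 1) m ≤ satProb (j + 1) n (m - J) + m * (j + 1) / ((n + 1) * J) := by
  rw [satProb_eq (j + 1) (n + 1) m]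
  exact (full_le_proj m univ univ (fun _ _ => Finset.mem_univ _)).trans (upper_chain hn J m hJ)

/-- Numerics: many dead literals give a definite killing probability. -/
lemma pow_le_half {p : ℝ} {t : ℕ} (hp1 : p ≤ 1) (ht : 1 ≤ t * p) :
    (1 - p) ^ t ≤ 1 / 2 := by
  have h1 : 1 - p ≤ Real.exp (-p) := by
    have := Real.add_one_le_exp (-p)
    linarith
  have h2 : (1 - p) ^ t ≤ Real.exp (-p) ^ t := pow_le_pow_left₀ (by linarith) h1 t
  rw [← Real.exp_nat_mul] at h2
  have h3 : Real.exp (t * -p) ≤ Real.exp (-1) := Real.exp_le_exp.mpr (by linarith)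
  have h4 : Real.exp (-1) ≤ 1 / 2 := by
    rw [Real.exp_neg, one_div]
    apply inv_anti₀ (by norm_num)
    have := Real.add_one_le_exp (1:ℝ)
    linarith
  linarith

lemma choose_mul_pow_le {b n : ℕ} (h : b ≤ n) (j : ℕ) :
    b.choose j * n ^ j ≤ n.choose j * b ^ j := by
  induction j with
  | zero => simp
  | succ j ih =>
    have h1 := Nat.choose_succ_right_eq b j
    have h2 := Nat.choose_succ_right_eq n j
    have h3 : (b - j) * n ≤ (n - j) * b := by
      by_cases hj : j ≤ b
      · obtain ⟨x, rfl⟩ := Nat.exists_eq_add_of_le hj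
        obtain ⟨y, rfl⟩ := Nat.exists_eq_add_of_le h
        have e1 : j + x - j = x := by omega
        have e2 : j + x + y - j = x + y := by omega
        rw [e1, e2]
        nlinarith
      · have : b - j = 0 := by omega
        rw [this]
        simp
    apply Nat.le_of_mul_le_mul_left _ (Nat.succ_pos j)
    calc (j + 1) * (b.choose (j + 1) * n ^ (j + 1))
        = (b.choose (j + 1) * (j + 1)) * n ^ (j + 1) := by ring
      _ = (b.choose j * (b - j)) * n ^ (j + 1) := by rw [h1]
      _ = (b.choose j * n ^ j) * ((b - j) * n) := by ring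
      _ ≤ (n.choose j * b ^ j) * ((n - j) * b) := Nat.mul_le_mul ih h3
      _ = (n.choose j * (n - j)) * b ^ (j + 1) := by ring
      _ = (n.choose (j + 1) * (j + 1)) * b ^ (j + 1) := by rw [h2]
      _ = (j + 1) * (n.choose (j + 1) * b ^ (j + 1)) := by ring

lemma small_choose {b n j : ℕ} (hb : b ≤ n) (hj : 1 ≤ j) (hn : 1 ≤ n) {δ : ℝ}
    (hbδ : (b:ℝ) ≤ δ * n) :
    (b.choose j : ℝ) ≤ δ * Fintype.card (ProperClause n j) := by
  have hn' : (0:ℝ) < n := by exact_mod_cast hn
  have h1 : (b.choose j : ℝ) * n ^ j ≤ n.choose j * b ^ j := by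
    exact_mod_cast choose_mul_pow_le hb j
  have hδ0 : 0 ≤ δ := by
    by_contra h
    push Not at h
    have : δ * n < 0 := mul_neg_of_neg_of_pos h hn'
    have h' : (0:ℝ) ≤ b := by positivity
    linarith
  have hratio : (b:ℝ) / n ≤ 1 := by
    rw [div_le_one hn']
    exact_mod_cast hb
  have hratio0 : (0:ℝ) ≤ b / n := by positivity
  have h2 : (b:ℝ) / n ≤ δ := by
    rw [div_le_iff₀ hn']; exact hbδ
  have h3 : ((b:ℝ) / n) ^ j ≤ δ := by
    calc ((b:ℝ) / n) ^ j ≤ ((b:ℝ) / n) ^ 1 := pow_le_pow_of_le_one hratio0 hratio hj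
      _ = (b:ℝ) / n := pow_one _
      _ ≤ δ := h2
  have h4 : (b.choose j : ℝ) ≤ n.choose j * ((b:ℝ) / n) ^ j := by
    rw [div_pow]
    rw [mul_div_assoc', le_div_iff₀ (by positivity)]
    exact h1
  rw [card_clause]
  push_cast
  have h5 : (1:ℝ) ≤ 2 ^ j := one_le_pow₀ (by norm_num)
  have hc : (0:ℝ) ≤ n.choose j := by positivity
  calc (b.choose j : ℝ) ≤ n.choose j * ((b:ℝ) / n) ^ j := h4
    _ ≤ n.choose j * δ := mul_le_mul_of_nonneg_left h3 hc
    _ = δ * (1 * n.choose j) := by ring
    _ ≤ δ * (2 ^ j * n.choose j) := by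
      apply mul_le_mul_of_nonneg_left _ hδ0
      exact mul_le_mul_of_nonneg_right h5 hc

lemma kill_numeric {b₀ n k : ℕ} {δ : ℝ} (hδ : 0 < δ) (hb : δ * n ≤ b₀) (hk : 2 * (k:ℝ) ≤ δ * n) :
    (δ / 4) ^ k * Fintype.card (ProperClause n k) ≤ (b₀.choose k : ℝ) := by
  have h1 := Nat.pow_le_choose (α := ℝ) k b₀
  have h2 := Nat.choose_le_pow_div (α := ℝ) k n
  have hk0 : k ≤ b₀ := by
    have : (k:ℝ) ≤ b₀ := by
      have : (0:ℝ) ≤ k := by positivity
      linarith
    exact_mod_cast this
  have h3 : ((b₀ + 1 - k : ℕ) : ℝ) = (b₀:ℝ) + 1 - k := by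
    rw [Nat.cast_sub (by omega)]
    push_cast
    ring
  have h4 : δ * n / 2 ≤ ((b₀ + 1 - k : ℕ) : ℝ) := by
    rw [h3]
    linarith
  have h5 : (δ * n / 2) ^ k ≤ ((b₀ + 1 - k : ℕ) : ℝ) ^ k :=
    pow_le_pow_left₀ (by positivity) h4 k
  rw [card_clause]
  push_cast
  have hf : (0:ℝ) < (k.factorial : ℝ) := by positivity
  have h6 : (δ / 4) ^ k * (2 ^ k * (n.choose k : ℝ)) = (δ / 2) ^ k * (n.choose k : ℝ) := by
    rw [← mul_assoc, ← mul_pow]
    congr 2
    ring
  rw [h6]
  calc (δ / 2) ^ k * (n.choose k : ℝ) ≤ (δ / 2) ^ k * ((n:ℝ) ^ k / k.factorial) :=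
        mul_le_mul_of_nonneg_left h2 (by positivity)
    _ = (δ * n / 2) ^ k / k.factorial := by
        rw [div_pow, div_pow, mul_pow]
        field_simp
    _ ≤ ((b₀ + 1 - k : ℕ) : ℝ) ^ k / k.factorial :=
        div_le_div_of_nonneg_right h5 hf.le
    _ ≤ _ := h1

/-- From `n` variables up to `n + 1` variables. -/
theorem lower_step (hj : 1 ≤ j) (hn : j + 1 ≤ n) {δ : ℝ} (hδ0 : 0 < δ) (hδ1 : δ ≤ 1)
    (hδn : 2 * ((j:ℝ) + 1) ≤ δ * n) {t L : ℕ} (hL : 0 < L)
    (ht : 1 ≤ t * (δ / 4) ^ (j + 1)) (J m : ℕ) :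
    satProb (j + 1) n (m + L * t) - J * (δ + 2 / L) - m * (j + 1) / (2 * (n + 1) * (J + 1))
      ≤ satProb (j + 1) (n + 1) m := by
  have hjn : j ≤ n := by omega
  have hn1 : 1 ≤ n := by omega
  set p : ℝ := (δ / 4) ^ (j + 1) with hp
  have hp0 : 0 ≤ p := by positivity
  have hp1 : p ≤ 1 := by
    apply pow_le_one₀ (by positivity)
    linarith
  set A := opK n (j + 1) with hA
  set B := opK n j with hB
  have hstar : ∀ S, 2 * (A^[t] nonemptyInd) S ≤ B nonemptyInd S + nonemptyInd S + δ := by
    intro S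
    apply star_ineq ⌈δ * n⌉₊ t p δ hp0 hp1 hδ0.le (card_clause_pos hn) (card_clause_pos hjn)
    · apply kill_numeric hδ0 (Nat.le_ceil _)
      push_cast
      linarith
    · exact pow_le_half hp1 ht
    · intro b hb hbn
      apply small_choose hbn hj hn1
      exact (Nat.lt_ceil.mp hb).le
  set v : ℕ → ℕ → ℝ := fun m i => (A^[m] (B^[i] nonemptyInd)) univ with hv
  have hG : ∀ a i, Valid (A^[a] (B^[i] nonemptyInd)) := fun a i =>
    iterK_valid hn (iterK_valid hjn valid_nonemptyInd i) a
  have harr := array_bound v t L hL δ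
    (fun m i => key_step _ _ (card_clause_pos hn) (card_clause_pos hjn) hstar m i univ)
    (fun i m m' h => iter_anti _ (card_clause_pos hn) (iterK_valid hjn valid_nonemptyInd i) univ h)
    (fun m i => (hG m i).nonneg _) (fun m i => (hG m i).le_one _) m J
  have hv0 : v (m + L * t) 0 = satProb (j + 1) n (m + L * t) := (satProb_eq _ _ _).symm
  rw [hv0] at harr
  have hq : ((Fintype.card (ProperClause n j) : ℝ) /
      Fintype.card (ProperClause (n + 1) (j + 1))) = (j + 1) / (2 * (n + 1)) :=
    card_ratio n j (by omega)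
  have hch := lower_chain hn rfl univ J m
  rw [hq] at hch
  have hext := ext_le_full (n := n) (k := j + 1) m univ univ (fun _ _ => Finset.mem_univ _)
  rw [← satProb_eq (j + 1) (n + 1) m] at hext
  have hVle : v m J ≤ 1 := (hG m J).le_one _
  have hV0 : 0 ≤ v m J := (hG m J).nonneg _
  have hfin : v m J * (1 - ((j:ℝ) + 1) / (2 * (n + 1)) * m / (J + 1)) ≤ satProb (j + 1) (n + 1) m :=
    hch.trans hext
  have hx : ((j:ℝ) + 1) / (2 * (n + 1)) * m / (J + 1) = m * (j + 1) / (2 * (n + 1) * (J + 1)) := by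
    field_simp
  rw [hx] at hfin
  have hy : (0:ℝ) ≤ m * (j + 1) / (2 * (n + 1) * (J + 1)) := by positivity
  have hz : v m J - m * (j + 1) / (2 * (n + 1) * (J + 1))
      ≤ v m J * (1 - m * (j + 1) / (2 * (n + 1) * (J + 1))) := by
    nlinarith
  linarith

end Vale.Agent.Lib.P170
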