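import Mathlib

/-!
Random `k`-SAT: proper clauses, satisfiability probability, threshold sequences.
-/

namespace Vale.Agent.Lib.P170

open Finset

/-- A proper `k`-clause on `n` Boolean variables: a set of `k` literals on `k` distinct variables.
A literal is a pair `(i, b)`: the variable `i` together with the value `b` that makes it true. -/
def ProperClause (n k : ℕ) : Type :=
  {c : Finset (Fin n × Bool) // c.card = k ∧ ∀ i, ¬ ((i, true) ∈ c ∧ (i, false) ∈ c)}

instance (n k : ℕ) : Fintype (ProperClause n k) := by
  unfold ProperClause; infer_instance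

instance (n k : ℕ) : DecidableEq (ProperClause n k) := by
  unfold ProperClause; infer_instance

/-- The assignment `a` makes the clause `c` true: some literal of `c` is true at `a`. -/
def ProperClause.Holds {n k : ℕ} (c : ProperClause n k) (a : Fin n → Bool) : Prop :=
  ∃ l ∈ c.1, a l.1 = l.2

/-- The formula `F = C_1 ∧ ... ∧ C_m` is satisfiable. -/
def Satisfiable {n k m : ℕ} (F : Fin m → ProperClause n k) : Prop :=
  ∃ a : Fin n → Bool, ∀ j, (F j).Holds a

open Classical in
/-- `P_{k,n}(m)`: the probability that `m` independent uniform proper `k`-clauses on `n` variables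
form a satisfiable formula, as the fraction of satisfiable sequences of `m` clauses. -/
noncomputable def satProb (k n m : ℕ) : ℝ :=
  ((univ.filter (fun F : Fin m → ProperClause n k => Satisfiable F)).card : ℝ) /
    (Fintype.card (ProperClause n k) : ℝ) ^ m

/-- `r` is a threshold sequence for random `k`-SAT: for every `ε > 0`,
`P_{k,n}(⌊(r n - ε) n⌋) → 1` and `P_{k,n}(⌊(r n + ε) n⌋) → 0`. -/
def IsThresholdSeq (k : ℕ) (r : ℕ → ℝ) : Prop :=
  ∀ ε : ℝ, 0 < ε →
    Filter.Tendsto (fun n : ℕ => satProb k n ⌊(r n - ε) * n⌋₊) Filter.atTop (nhds 1) ∧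
    Filter.Tendsto (fun n : ℕ => satProb k n ⌊(r n + ε) * n⌋₊) Filter.atTop (nhds 0)

end Vale.Agent.Lib.P170
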