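import Vale.Agent.Lib.P170.Clauses

/-! Decomposition of clauses according to the last variable. -/

set_option linter.unusedSectionVars false

namespace Vale.Agent.Lib.P170

open Finset

open Classical

variable {n k : ℕ}

/-- Embedding of literals. -/
def litEmb (n : ℕ) : Fin n × Bool ↪ Fin (n + 1) × Bool :=
  ⟨fun l => (l.1.castSucc, l.2), by
    rintro ⟨i, b⟩ ⟨i', b'⟩ h
    simp only [Prod.mk.injEq, Fin.castSucc_inj] at h
    rw [h.1, h.2]⟩

lemma litEmb_apply (l : Fin n × Bool) : litEmb n l = (l.1.castSucc, l.2) := rfl

lemma mem_map_castSucc {c : Finset (Fin n × Bool)} {j : Fin n} {b : Bool} :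
    (j.castSucc, b) ∈ c.map (litEmb n) ↔ (j, b) ∈ c := by
  constructor
  · intro h
    obtain ⟨⟨i, x⟩, hl, he⟩ := Finset.mem_map.mp h
    rw [litEmb_apply] at he
    simp only [Prod.mk.injEq, Fin.castSucc_inj] at he
    rw [← he.1, ← he.2]
    exact hl
  · intro h
    exact Finset.mem_map.mpr ⟨(j, b), h, rfl⟩

lemma not_mem_map_last {c : Finset (Fin n × Bool)} {b : Bool} :
    (Fin.last n, b) ∉ c.map (litEmb n) := by
  intro h
  obtain ⟨⟨i, x⟩, _, he⟩ := Finset.mem_map.mp h
  rw [litEmb_apply] at he
  simp only [Prod.mk.injEq] at he
  exact (Fin.castSucc_lt_last i).ne he.1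

/-- A clause not using the last variable. -/
def liftC (c : ProperClause n k) : ProperClause (n + 1) k :=
  ⟨c.1.map (litEmb n), by
    refine ⟨by rw [Finset.card_map]; exact c.2.1, ?_⟩
    intro i
    induction i using Fin.lastCases with
    | last => exact fun h => not_mem_map_last h.1
    | cast j =>
      rw [mem_map_castSucc, mem_map_castSucc]
      exact c.2.2 j⟩

/-- A clause using the last variable. -/
def insC (b : Bool) (c : ProperClause n k) : ProperClause (n + 1) (k + 1) :=
  ⟨insert (Fin.last n, b) (c.1.map (litEmb n)), by
    refine ⟨?_, ?_⟩
    · rw [Finset.card_insert_of_notMem not_mem_map_last, Finset.card_map, c.2.1]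
    · intro i
      induction i using Fin.lastCases with
      | last =>
        rintro ⟨h1, h2⟩
        rw [Finset.mem_insert] at h1 h2
        have h1' := h1.resolve_right not_mem_map_last
        have h2' := h2.resolve_right not_mem_map_last
        simp only [Prod.mk.injEq, true_and] at h1' h2'
        rw [← h1'] at h2'
        exact absurd h2' (by simp)
      | cast j =>
        rintro ⟨h1, h2⟩
        rw [Finset.mem_insert] at h1 h2
        have hne : ∀ x : Bool, (j.castSucc, x) ≠ (Fin.last n, b) := by
          intro x h
          simp only [Prod.mk.injEq] at h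
          exact (Fin.castSucc_lt_last j).ne h.1
        have h1' := h1.resolve_left (hne _)
        have h2' := h2.resolve_left (hne _)
        rw [mem_map_castSucc] at h1' h2'
        exact c.2.2 j ⟨h1', h2'⟩⟩

lemma mem_insC_castSucc {b x : Bool} {c : ProperClause n k} {j : Fin n} :
    (j.castSucc, x) ∈ (insC b c).1 ↔ (j, x) ∈ c.1 := by
  change (j.castSucc, x) ∈ insert (Fin.last n, b) (c.1.map (litEmb n)) ↔ _
  rw [Finset.mem_insert, mem_map_castSucc]
  constructor
  · rintro (h | h)
    · simp only [Prod.mk.injEq] at h
      exact absurd h.1 (Fin.castSucc_lt_last j).ne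
    · exact h
  · exact Or.inr

lemma mem_insC_last {b x : Bool} {c : ProperClause n k} :
    (Fin.last n, x) ∈ (insC b c).1 ↔ x = b := by
  change (Fin.last n, x) ∈ insert (Fin.last n, b) (c.1.map (litEmb n)) ↔ _
  rw [Finset.mem_insert]
  constructor
  · rintro (h | h)
    · simpa using h
    · exact absurd h not_mem_map_last
  · rintro rfl
    exact Or.inl rfl

lemma mem_liftC_castSucc {x : Bool} {c : ProperClause n k} {j : Fin n} :
    (j.castSucc, x) ∈ (liftC c).1 ↔ (j, x) ∈ c.1 := mem_map_castSucc

lemma not_mem_liftC_last {x : Bool} {c : ProperClause n k} :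
    (Fin.last n, x) ∉ (liftC c).1 := not_mem_map_last

/-- The decomposition map. -/
def decompMap (n k : ℕ) : ProperClause n (k + 1) ⊕ (Bool × ProperClause n k) →
    ProperClause (n + 1) (k + 1) :=
  Sum.elim liftC (fun p => insC p.1 p.2)

lemma decompMap_bijective : Function.Bijective (decompMap n k) := by
  constructor
  · rintro (c | ⟨b, c⟩) (c' | ⟨b', c'⟩) h
    · simp only [decompMap, Sum.elim_inl] at h
      congr 1
      apply Subtype.ext
      ext ⟨j, x⟩
      rw [← mem_liftC_castSucc (c := c), ← mem_liftC_castSucc (c := c'), h]
    · simp only [decompMap, Sum.elim_inl, Sum.elim_inr] at h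
      have h1 : (Fin.last n, b') ∈ (insC b' c').1 := mem_insC_last.mpr rfl
      rw [← h] at h1
      exact absurd h1 not_mem_liftC_last
    · simp only [decompMap, Sum.elim_inl, Sum.elim_inr] at h
      have h1 : (Fin.last n, b) ∈ (insC b c).1 := mem_insC_last.mpr rfl
      rw [h] at h1
      exact absurd h1 not_mem_liftC_last
    · simp only [decompMap, Sum.elim_inr] at h
      have h1 : (Fin.last n, b) ∈ (insC b c).1 := mem_insC_last.mpr rfl
      rw [h, mem_insC_last] at h1
      subst h1
      congr 2
      apply Subtype.ext
      ext ⟨j, x⟩
      rw [← mem_insC_castSucc (b := b) (c := c), ← mem_insC_castSucc (b := b) (c := c'), h]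
  · intro C
    have hinj : Set.InjOn (litEmb n) ((litEmb n) ⁻¹' (C.1 : Set (Fin (n + 1) × Bool))) :=
      (litEmb n).injective.injOn
    set c' := C.1.preimage (litEmb n) hinj with hc'
    have hc'mem : ∀ j x, (j, x) ∈ c' ↔ (j.castSucc, x) ∈ C.1 := by
      intro j x
      rw [hc', Finset.mem_preimage]
      rfl
    have hnoclash : ∀ i, ¬ ((i, true) ∈ c' ∧ (i, false) ∈ c') := by
      intro i h
      rw [hc'mem, hc'mem] at h
      exact C.2.2 _ h
    by_cases h1 : (Fin.last n, true) ∈ C.1
    · have hset : C.1 = insert (Fin.last n, true) (c'.map (litEmb n)) := by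
        ext ⟨i, x⟩
        induction i using Fin.lastCases with
        | last =>
          rw [Finset.mem_insert]
          constructor
          · intro h
            left
            cases x
            · exact absurd ⟨h1, h⟩ (C.2.2 _)
            · rfl
          · rintro (h | h)
            · rw [h]; exact h1
            · exact absurd h not_mem_map_last
        | cast j =>
          rw [Finset.mem_insert, mem_map_castSucc, hc'mem]
          constructor
          · exact Or.inr
          · rintro (h | h)
            · simp only [Prod.mk.injEq] at h
              exact absurd h.1 (Fin.castSucc_lt_last j).ne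
            · exact h
      have hcard : c'.card = k := by
        have := C.2.1
        rw [hset, Finset.card_insert_of_notMem not_mem_map_last, Finset.card_map] at this
        omega
      exact ⟨Sum.inr (true, ⟨c', hcard, hnoclash⟩), Subtype.ext hset.symm⟩
    · by_cases h2 : (Fin.last n, false) ∈ C.1
      · have hset : C.1 = insert (Fin.last n, false) (c'.map (litEmb n)) := by
          ext ⟨i, x⟩
          induction i using Fin.lastCases with
          | last =>
            rw [Finset.mem_insert]
            constructor
            · intro h
              left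
              cases x
              · rfl
              · exact absurd h h1
            · rintro (h | h)
              · rw [h]; exact h2
              · exact absurd h not_mem_map_last
          | cast j =>
            rw [Finset.mem_insert, mem_map_castSucc, hc'mem]
            constructor
            · exact Or.inr
            · rintro (h | h)
              · simp only [Prod.mk.injEq] at h
                exact absurd h.1 (Fin.castSucc_lt_last j).ne
              · exact h
        have hcard : c'.card = k := by
          have := C.2.1
          rw [hset, Finset.card_insert_of_notMem not_mem_map_last, Finset.card_map] at this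
          omega
        exact ⟨Sum.inr (false, ⟨c', hcard, hnoclash⟩), Subtype.ext hset.symm⟩
      · have hset : C.1 = c'.map (litEmb n) := by
          ext ⟨i, x⟩
          induction i using Fin.lastCases with
          | last =>
            constructor
            · intro h
              cases x
              · exact absurd h h2
              · exact absurd h h1
            · intro h
              exact absurd h not_mem_map_last
          | cast j =>
            rw [mem_map_castSucc, hc'mem]
        have hcard : c'.card = k + 1 := by
          have := C.2.1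
          rw [hset, Finset.card_map] at this
          exact this
        exact ⟨Sum.inl ⟨c', hcard, hnoclash⟩, Subtype.ext hset.symm⟩

/-- Sum decomposition. -/
lemma sum_decomp (f : ProperClause (n + 1) (k + 1) → ℝ) :
    ∑ C, f C = ∑ c, f (liftC c) + (∑ c, f (insC true c) + ∑ c, f (insC false c)) := by
  have h := Equiv.sum_comp (Equiv.ofBijective _ (decompMap_bijective (n := n) (k := k))) f
  rw [← h, Fintype.sum_sum_type, Fintype.sum_prod_type, Fintype.sum_bool]
  rfl

/-- The number of clauses with empty literal set. -/
lemma card_clause_zero (n : ℕ) : Fintype.card (ProperClause n 0) = 1 := by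
  rw [Fintype.card_eq_one_iff]
  refine ⟨⟨∅, by simp, by simp⟩, ?_⟩
  intro y
  apply Subtype.ext
  exact Finset.card_eq_zero.mp y.2.1

lemma card_clause_zero_succ (k : ℕ) : Fintype.card (ProperClause 0 (k + 1)) = 0 := by
  rw [Fintype.card_eq_zero_iff]
  constructor
  intro c
  have h := c.2.1
  have : c.1 = ∅ := by
    ext l
    exact l.1.elim0
  rw [this] at h
  simp at h

lemma card_clause_succ (n k : ℕ) : Fintype.card (ProperClause (n + 1) (k + 1))
    = Fintype.card (ProperClause n (k + 1)) + 2 * Fintype.card (ProperClause n k) := by
  have h := sum_decomp (n := n) (k := k) (fun _ => (1:ℝ))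
  simp only [Finset.sum_const, Finset.card_univ, nsmul_eq_mul, mul_one] at h
  have : (Fintype.card (ProperClause (n + 1) (k + 1)) : ℝ)
      = ((Fintype.card (ProperClause n (k + 1)) + 2 * Fintype.card (ProperClause n k) : ℕ) : ℝ) := by
    rw [h]; push_cast; ring
  exact_mod_cast this

/-- The number of proper clauses. -/
lemma card_clause (n k : ℕ) : Fintype.card (ProperClause n k) = 2 ^ k * n.choose k := by
  induction n generalizing k with
  | zero =>
    cases k with
    | zero => simp [card_clause_zero]
    | succ k => simp [card_clause_zero_succ]
  | succ n ih =>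
    cases k with
    | zero => simp [card_clause_zero]
    | succ k =>
      rw [card_clause_succ, ih, ih, Nat.choose_succ_succ]
      ring

lemma card_clause_pos {n k : ℕ} (h : k ≤ n) : 0 < Fintype.card (ProperClause n k) := by
  rw [card_clause]
  exact Nat.mul_pos (by positivity) (Nat.choose_pos h)

/-- Extension of an assignment by the value true at the last variable. -/
def extA (a : Fin n → Bool) : Fin (n + 1) → Bool :=
  fun i => Fin.lastCases true a i

@[simp] lemma extA_castSucc (a : Fin n → Bool) (j : Fin n) : extA a j.castSucc = a j := by
  simp [extA]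

@[simp] lemma extA_last (a : Fin n → Bool) : extA a (Fin.last n) = true := by
  simp [extA]

/-- Restriction of an assignment to the first `n` variables. -/
def projA (a : Fin (n + 1) → Bool) : Fin n → Bool := fun j => a j.castSucc

lemma holds_liftC (c : ProperClause n k) (a : Fin (n + 1) → Bool) :
    (liftC c).Holds a ↔ c.Holds (projA a) := by
  constructor
  · rintro ⟨⟨i, x⟩, hl, he⟩
    induction i using Fin.lastCases with
    | last => exact absurd hl not_mem_liftC_last
    | cast j => exact ⟨(j, x), mem_liftC_castSucc.mp hl, he⟩
  · rintro ⟨⟨j, x⟩, hl, he⟩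
    exact ⟨(j.castSucc, x), mem_liftC_castSucc.mpr hl, he⟩

lemma holds_insC (b : Bool) (c : ProperClause n k) (a : Fin (n + 1) → Bool) :
    (insC b c).Holds a ↔ a (Fin.last n) = b ∨ c.Holds (projA a) := by
  constructor
  · rintro ⟨⟨i, x⟩, hl, he⟩
    induction i using Fin.lastCases with
    | last =>
      left
      rw [← mem_insC_last.mp hl]
      exact he
    | cast j => exact Or.inr ⟨(j, x), mem_insC_castSucc.mp hl, he⟩
  · rintro (h | ⟨⟨j, x⟩, hl, he⟩)
    · exact ⟨(Fin.last n, b), mem_insC_last.mpr rfl, h⟩
    · exact ⟨(j.castSucc, x), mem_insC_castSucc.mpr hl, he⟩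

lemma projA_extA (a : Fin n → Bool) : projA (extA a) = a := by
  funext j
  simp [projA]

end Vale.Agent.Lib.P170
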