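import Vale.Agent.Lib.P170.Compare

/-! Slow variation of threshold sequences. -/

set_option linter.unusedSectionVars false

namespace Vale.Agent.Lib.P170

open Finset Filter Topology

open Classical

variable {n j k : ℕ}

lemma satProb_anti (hk : k ≤ n) {m m' : ℕ} (h : m ≤ m') : satProb k n m' ≤ satProb k n m := by
  rw [satProb_eq, satProb_eq]
  exact iter_anti _ (card_clause_pos hk) valid_nonemptyInd univ h

lemma satProb_zero (k n : ℕ) : satProb k n 0 = 1 := by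
  rw [satProb_eq]
  simp [nonemptyInd]

lemma satProb_le_one (hk : k ≤ n) (m : ℕ) : satProb k n m ≤ 1 := by
  rw [satProb_eq]
  exact (iter_valid _ (card_clause_pos hk) valid_nonemptyInd m).le_one univ

lemma satProb_nonneg (hk : k ≤ n) (m : ℕ) : 0 ≤ satProb k n m := by
  rw [satProb_eq]
  exact (iter_valid _ (card_clause_pos hk) valid_nonemptyInd m).nonneg univ

/-- The iterated form of the lower comparison. -/
lemma lower_iter (hj : 1 ≤ j) (hn : j + 1 ≤ n) {δ : ℝ} (hδ0 : 0 < δ) (hδ1 : δ ≤ 1)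
    (hδn : 2 * ((j:ℝ) + 1) ≤ δ * n) {t L : ℕ} (hL : 0 < L)
    (ht : 1 ≤ t * (δ / 4) ^ (j + 1)) (J T m : ℕ) :
    satProb (j + 1) n (m + T * (L * t))
      - T * (J * (δ + 2 / L) + (m + T * (L * t) : ℕ) * (j + 1) / (2 * (n + 1) * (J + 1)))
      ≤ satProb (j + 1) (n + T) m := by
  induction T generalizing m with
  | zero => simp
  | succ T ih =>
    have hn' : j + 1 ≤ n + T := by omega
    have hδn' : 2 * ((j:ℝ) + 1) ≤ δ * ((n + T : ℕ) : ℝ) := by
      have : (n:ℝ) ≤ ((n + T : ℕ) : ℝ) := by push_cast; linarith [(Nat.cast_nonneg T : (0:ℝ) ≤ T)]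
      nlinarith
    have h1 := lower_step (n := n + T) hj hn' hδ0 hδ1 hδn' hL ht J m
    have h2 := ih (m + L * t)
    have e1 : m + L * t + T * (L * t) = m + (T + 1) * (L * t) := by ring
    rw [e1] at h2
    set M := m + (T + 1) * (L * t) with hM
    have h3 : (m:ℝ) * (j + 1) / (2 * (((n + T : ℕ):ℝ) + 1) * (J + 1))
        ≤ (M:ℝ) * (j + 1) / (2 * ((n:ℝ) + 1) * (J + 1)) := by
      have hmM : (m:ℝ) ≤ M := by
        have : m ≤ M := by omega
        exact_mod_cast this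
      apply div_le_div₀ (by positivity) (by nlinarith) (by positivity)
      have : (n:ℝ) ≤ ((n + T : ℕ) : ℝ) := by push_cast; linarith [(Nat.cast_nonneg T : (0:ℝ) ≤ T)]
      have hJ : (0:ℝ) ≤ (J:ℝ) + 1 := by positivity
      nlinarith
    have e2 : n + (T + 1) = n + T + 1 := by ring
    rw [e2]
    push_cast at h1 h2 h3 ⊢
    nlinarith

/-- The iterated form of the upper comparison. -/
lemma upper_iter (hn : j + 1 ≤ n) (J : ℕ) (hJ : 1 ≤ J) (T m : ℕ) :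
    satProb (j + 1) (n + T) m
      ≤ satProb (j + 1) n (m - T * J) + T * (m * (j + 1) / ((n + 1) * J)) := by
  induction T generalizing m with
  | zero => simp
  | succ T ih =>
    have hn' : j + 1 ≤ n + T := by omega
    have h1 := upper_step (n := n + T) hn' J m hJ
    have h2 := ih (m - J)
    have e1 : m - J - T * J = m - (T + 1) * J := by
      rw [Nat.sub_sub]
      congr 1
      ring
    rw [e1] at h2
    have hJ' : (0:ℝ) < J := by exact_mod_cast hJ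
    have h3 : (m:ℝ) * (j + 1) / ((((n + T : ℕ):ℝ) + 1) * J)
        ≤ (m:ℝ) * (j + 1) / (((n:ℝ) + 1) * J) := by
      apply div_le_div_of_nonneg_left (by positivity) (by positivity)
      have : (n:ℝ) ≤ ((n + T : ℕ) : ℝ) := by push_cast; linarith [(Nat.cast_nonneg T : (0:ℝ) ≤ T)]
      nlinarith
    have h4 : ((m - J : ℕ):ℝ) * (j + 1) / (((n:ℝ) + 1) * J)
        ≤ (m:ℝ) * (j + 1) / (((n:ℝ) + 1) * J) := by
      apply div_le_div_of_nonneg_right _ (by positivity)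
      apply mul_le_mul_of_nonneg_right _ (by positivity)
      exact_mod_cast Nat.sub_le m J
    have h5 := mul_le_mul_of_nonneg_left h4 (Nat.cast_nonneg T : (0:ℝ) ≤ T)
    have e2 : n + (T + 1) = n + T + 1 := by ring
    rw [e2]
    push_cast at h1 h2 h3 h5 ⊢
    nlinarith

/-- Solutions are a union of singletons. -/
lemma iter_le_sum_singleton (hc : 0 < Fintype.card (ProperClause n k)) (m : ℕ)
    (S : Finset (Fin n → Bool)) :
    (op (solSet : ProperClause n k → _))^[m] nonemptyInd S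
      ≤ ∑ a ∈ S, (op (solSet : ProperClause n k → _))^[m] nonemptyInd {a} := by
  have hc' : (0:ℝ) < Fintype.card (ProperClause n k) := by exact_mod_cast hc
  induction m generalizing S with
  | zero =>
    simp only [Function.iterate_zero, id]
    by_cases hS : S.Nonempty
    · have h1 : ∀ a ∈ S, nonemptyInd ({a} : Finset (Fin n → Bool)) = 1 := by
        intro a _
        simp [nonemptyInd]
      rw [Finset.sum_congr rfl h1]
      simp only [nonemptyInd, if_pos hS, Finset.sum_const, nsmul_eq_mul, mul_one]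
      exact_mod_cast hS.card_pos
    · have : S = ∅ := Finset.not_nonempty_iff_eq_empty.mp hS
      subst this
      simp [nonemptyInd]
  | succ m ih =>
    simp only [Function.iterate_succ_apply']
    set G := (op (solSet : ProperClause n k → _))^[m] nonemptyInd with hG
    have hGv : Valid G := iter_valid _ hc valid_nonemptyInd m
    unfold op
    rw [← Finset.sum_div]
    apply div_le_div_of_nonneg_right _ hc'.le
    rw [Finset.sum_comm]
    refine Finset.sum_le_sum fun c _ => ?_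
    refine (ih _).trans ?_
    have h1 : ∀ a ∈ S ∩ solSet c, G {a} = G ({a} ∩ solSet c) := by
      intro a ha
      have : ({a} : Finset (Fin n → Bool)) ∩ solSet c = {a} := by
        rw [Finset.inter_eq_left, Finset.singleton_subset_iff]
        exact (Finset.mem_inter.mp ha).2
      rw [this]
    rw [Finset.sum_congr rfl h1]
    exact Finset.sum_le_sum_of_subset_of_nonneg Finset.inter_subset_left
      (fun a _ _ => hGv.nonneg _)

lemma card_dead_singleton (a : Fin n → Bool) : n ≤ (deadLits ({a} : Finset (Fin n → Bool))).card := by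
  have h : (univ : Finset (Fin n)).card ≤ (deadLits ({a} : Finset (Fin n → Bool))).card := by
    apply Finset.card_le_card_of_injOn (fun i => (i, !a i))
    · intro i _
      simp [mem_deadLits]
    · intro i _ i' _ h
      exact (Prod.mk.inj h).1
  simpa using h

/-- The first moment bound. -/
lemma satProb_first_moment (hk : k ≤ n) (m : ℕ) :
    satProb k n m ≤ 2 ^ n * (1 - (1 / 2 : ℝ) ^ k) ^ m := by
  have hc := card_clause_pos hk
  rw [satProb_eq]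
  refine (iter_le_sum_singleton hc m univ).trans ?_
  have h1 : ∀ a ∈ (univ : Finset (Fin n → Bool)),
      (op (solSet : ProperClause n k → _))^[m] nonemptyInd {a} ≤ (1 - (1 / 2 : ℝ) ^ k) ^ m := by
    intro a _
    apply iter_kill_bound n m ((1 / 2 : ℝ) ^ k) (by positivity) (pow_le_one₀ (by norm_num) (by norm_num)) hc
    · rw [card_clause]
      push_cast
      rw [← mul_assoc, ← mul_pow]
      norm_num
    · exact card_dead_singleton a
  refine (Finset.sum_le_sum h1).trans (le_of_eq ?_)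
  simp

/-- Threshold sequences are bounded above. -/
lemma threshold_bounded (hk : 1 ≤ k) {r : ℕ → ℝ} (hr : IsThresholdSeq k r) :
    ∃ R : ℝ, 0 < R ∧ ∀ᶠ n in atTop, r n ≤ R := by
  have hρ0 : 0 ≤ 1 - (1 / 2 : ℝ) ^ k := by
    have : (1 / 2 : ℝ) ^ k ≤ 1 := pow_le_one₀ (by norm_num) (by norm_num)
    linarith
  have hρ1 : 1 - (1 / 2 : ℝ) ^ k < 1 := by
    have : (0:ℝ) < (1 / 2 : ℝ) ^ k := by positivity
    linarith
  obtain ⟨C, hC⟩ := exists_pow_lt_of_lt_one (by norm_num : (0:ℝ) < 1 / 4) hρ1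
  refine ⟨2 + 2 * C, by positivity, ?_⟩
  have h1 := (hr 1 one_pos).1
  have h2 : ∀ᶠ n : ℕ in atTop, (1 / 2 : ℝ) < satProb k n ⌊(r n - 1) * n⌋₊ :=
    h1.eventually (lt_mem_nhds (by norm_num))
  filter_upwards [h2, eventually_ge_atTop k, eventually_ge_atTop 1] with n hn hkn hn1
  by_contra hcon
  push Not at hcon
  have hn' : (1:ℝ) ≤ n := by exact_mod_cast hn1
  have hfl : C * (n + 1) ≤ ⌊(r n - 1) * n⌋₊ := by
    apply Nat.le_floor
    push_cast
    have : (1 + 2 * (C:ℝ)) * n ≤ (r n - 1) * n :=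
      mul_le_mul_of_nonneg_right (by linarith) (by linarith)
    have hC0 : (0:ℝ) ≤ C := by positivity
    nlinarith
  have h3 := satProb_first_moment hkn ⌊(r n - 1) * n⌋₊
  have h4 : (1 - (1 / 2 : ℝ) ^ k) ^ ⌊(r n - 1) * n⌋₊ ≤ (1 - (1 / 2 : ℝ) ^ k) ^ (C * (n + 1)) :=
    pow_le_pow_of_le_one hρ0 hρ1.le hfl
  have h5 : (1 - (1 / 2 : ℝ) ^ k) ^ (C * (n + 1)) ≤ (1 / 4 : ℝ) ^ (n + 1) := by
    rw [pow_mul]
    exact pow_le_pow_left₀ (pow_nonneg hρ0 _) hC.le _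
  have h6 : (2:ℝ) ^ n * (1 / 4 : ℝ) ^ (n + 1) ≤ 1 / 4 := by
    have : (2:ℝ) ^ n * (1 / 4 : ℝ) ^ (n + 1) = (1 / 2 : ℝ) ^ n * (1 / 4) := by
      rw [pow_succ, ← mul_assoc, ← mul_pow]
      norm_num
    rw [this]
    have : (1 / 2 : ℝ) ^ n ≤ 1 := pow_le_one₀ (by norm_num) (by norm_num)
    linarith
  have h7 : (2:ℝ) ^ n * (1 - (1 / 2 : ℝ) ^ k) ^ ⌊(r n - 1) * n⌋₊ ≤ (2:ℝ) ^ n * (1 / 4 : ℝ) ^ (n + 1) :=
    mul_le_mul_of_nonneg_left (h4.trans h5) (by positivity)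
  linarith

/-- The slowly growing scale. -/
noncomputable def scale (a n : ℕ) : ℕ := Nat.findGreatest (fun s => s ^ a ≤ n) n

lemma scale_pow_le (a n : ℕ) (ha : 0 < a) : (scale a n) ^ a ≤ n := by
  have : (fun s => s ^ a ≤ n) (scale a n) := by
    apply Nat.findGreatest_spec (P := fun s => s ^ a ≤ n) (m := 0) (Nat.zero_le n)
    simp [ha.ne']
  exact this

lemma le_scale {a n s : ℕ} (ha : 0 < a) (h : s ^ a ≤ n) : s ≤ scale a n := by
  have hsn : s ≤ n := (Nat.le_self_pow ha.ne' s).trans h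
  exact Nat.le_findGreatest hsn h

lemma scale_tendsto {a : ℕ} (ha : 0 < a) (s₀ : ℕ) : ∀ᶠ n in atTop, s₀ ≤ scale a n := by
  filter_upwards [eventually_ge_atTop (s₀ ^ a)] with n hn
  exact le_scale ha hn

/-- The error term in the lower claim. -/
lemma lower_err {n s T J L M : ℕ} {R κ δ : ℝ} (hR : 0 < R) (hκ : 0 < κ) (hs1 : 1 ≤ s)
    (hJr : (J:ℝ) = (s:ℝ) ^ 2) (hLr : (L:ℝ) = (s:ℝ) ^ 4) (hδ : δ = 1 / (s:ℝ) ^ 4)
    (hT : T ≤ s) (hs5 : 4 * (3 + R * κ / 2) ≤ s) (hMr : (M : ℝ) ≤ R * n) :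
    (T:ℝ) * ((J:ℝ) * (δ + 2 / L) + (M : ℝ) * κ / (2 * ((n:ℝ) + 1) * (J + 1))) ≤ 1 / 4 := by
  have hS : (1:ℝ) ≤ s := by exact_mod_cast hs1
  have hS0 : (0:ℝ) < s := by linarith
  have herr1 : (J:ℝ) * (δ + 2 / L) = 3 / (s:ℝ) ^ 2 := by
    rw [hJr, hLr, hδ]
    field_simp
    norm_num
  have hn0 : (0:ℝ) ≤ n := by positivity
  have hs2 : (0:ℝ) ≤ (s:ℝ) ^ 2 := by positivity
  have herr2 : (M : ℝ) * κ / (2 * ((n:ℝ) + 1) * (J + 1)) ≤ (R * κ / 2) / (s:ℝ) ^ 2 := by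
    rw [hJr]
    rw [div_le_div_iff₀ (by positivity) (by positivity)]
    have h1 : (M : ℝ) * κ * (s:ℝ) ^ 2 ≤ (R * n) * κ * (s:ℝ) ^ 2 := by
      apply mul_le_mul_of_nonneg_right _ hs2
      apply mul_le_mul_of_nonneg_right hMr hκ.le
    have h3 : (0:ℝ) ≤ R * κ := by positivity
    have h4 : (n:ℝ) * (s:ℝ) ^ 2 ≤ ((n:ℝ) + 1) * ((s:ℝ) ^ 2 + 1) :=
      mul_le_mul (by linarith) (by linarith) hs2 (by linarith)
    have h2 : (R * n) * κ * (s:ℝ) ^ 2 ≤ R * κ / 2 * (2 * ((n:ℝ) + 1) * ((s:ℝ) ^ 2 + 1)) := by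
      calc (R * n) * κ * (s:ℝ) ^ 2 = (R * κ) * ((n:ℝ) * (s:ℝ) ^ 2) := by ring
        _ ≤ (R * κ) * (((n:ℝ) + 1) * ((s:ℝ) ^ 2 + 1)) :=
            mul_le_mul_of_nonneg_left h4 h3
        _ = _ := by ring
    linarith
  rw [herr1]
  have hTs : (T:ℝ) ≤ s := by exact_mod_cast hT
  have h1 : 3 / (s:ℝ) ^ 2 + (M : ℝ) * κ / (2 * ((n:ℝ) + 1) * (J + 1))
      ≤ (3 + R * κ / 2) / (s:ℝ) ^ 2 := by
    rw [add_div]
    linarith
  have hpos : (0:ℝ) ≤ (3 + R * κ / 2) / (s:ℝ) ^ 2 := by positivity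
  calc (T:ℝ) * (3 / (s:ℝ) ^ 2 + (M : ℝ) * κ / (2 * ((n:ℝ) + 1) * (J + 1)))
      ≤ (s:ℝ) * ((3 + R * κ / 2) / (s:ℝ) ^ 2) :=
        mul_le_mul hTs h1 (by positivity) hS0.le
    _ = (3 + R * κ / 2) / s := by
        field_simp
    _ ≤ 1 / 4 := by
        rw [div_le_iff₀ hS0]
        linarith

/-- The density shift in the lower claim. -/
lemma lower_shift {n s T j : ℕ} {ε R : ℝ} (hε : 0 < ε) (hR : 0 < R) (hs1 : 1 ≤ s)
    (hsa : s ^ (4 * (j + 1) + 6) ≤ n) (hT : T ≤ s)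
    (hs3 : 2 * (4:ℝ) ^ (j + 1) / ε ≤ s) (hs4 : 2 * R / ε ≤ s) :
    ((T * (s ^ 4 * (4 * s ^ 4) ^ (j + 1)) : ℕ) : ℝ) ≤ ε / 2 * n ∧ (T:ℝ) * R ≤ ε / 2 * n := by
  have hS : (1:ℝ) ≤ s := by exact_mod_cast hs1
  have hS0 : (0:ℝ) < s := by linarith
  have hn0 : (0:ℝ) ≤ n := by positivity
  constructor
  · have hTL : (T * (s ^ 4 * (4 * s ^ 4) ^ (j + 1)) : ℕ) * s ≤ 4 ^ (j + 1) * n := by
      have h1 : T * (s ^ 4 * (4 * s ^ 4) ^ (j + 1)) * s
          ≤ s * (s ^ 4 * (4 ^ (j + 1) * s ^ (4 * (j + 1)))) * s := by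
        apply Nat.mul_le_mul_right
        apply Nat.mul_le_mul hT
        apply Nat.mul_le_mul_left
        rw [mul_pow, ← pow_mul]
      calc T * (s ^ 4 * (4 * s ^ 4) ^ (j + 1)) * s
          ≤ s * (s ^ 4 * (4 ^ (j + 1) * s ^ (4 * (j + 1)))) * s := h1
        _ = 4 ^ (j + 1) * s ^ (4 * (j + 1) + 6) := by ring
        _ ≤ 4 ^ (j + 1) * n := Nat.mul_le_mul_left _ hsa
    have h1 : ((T * (s ^ 4 * (4 * s ^ 4) ^ (j + 1)) : ℕ) : ℝ) * s ≤ 4 ^ (j + 1) * n := by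
      exact_mod_cast hTL
    have h2 : 2 * (4:ℝ) ^ (j + 1) ≤ s * ε := by
      rw [div_le_iff₀ hε] at hs3
      exact hs3
    have h3 : (4:ℝ) ^ (j + 1) * n ≤ (ε / 2 * n) * s := by
      have := mul_le_mul_of_nonneg_right h2 hn0
      linarith
    exact le_of_mul_le_mul_right (h1.trans h3) hS0
  · have hTs : (T:ℝ) ≤ s := by exact_mod_cast hT
    have hpow : s ^ 2 ≤ s ^ (4 * (j + 1) + 6) := Nat.pow_le_pow_right hs1 (by omega)
    have h1 : (s:ℝ) ^ 2 ≤ n := by exact_mod_cast hpow.trans hsa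
    have h2 : 2 * R ≤ s * ε := by
      rw [div_le_iff₀ hε] at hs4
      exact hs4
    have h3 : (s:ℝ) * R * s ≤ (ε / 2 * n) * s := by
      have h5 := mul_le_mul_of_nonneg_right h2 (by positivity : (0:ℝ) ≤ (s:ℝ))
      have h6 := mul_le_mul_of_nonneg_left h1 (by positivity : (0:ℝ) ≤ ε / 2 * s)
      nlinarith
    have h4 : (s:ℝ) * R ≤ ε / 2 * n := le_of_mul_le_mul_right h3 hS0
    have h5 : (T:ℝ) * R ≤ s * R := mul_le_mul_of_nonneg_right hTs hR.le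
    linarith

/-- The lower claim at a given `n`. -/
lemma lower_claim (hj : 1 ≤ j) {n s T : ℕ} {ρ ε R : ℝ} (hε : 0 < ε) (hρ : ρ ≤ R) (hR : 0 < R)
    (hsa : s ^ (4 * (j + 1) + 6) ≤ n) (hT : T ≤ s) (hs1 : 1 ≤ s) (hs2 : 2 * (j + 1) ≤ s)
    (hs3 : 2 * (4:ℝ) ^ (j + 1) / ε ≤ s) (hs4 : 2 * R / ε ≤ s)
    (hs5 : 4 * (3 + R * (j + 1) / 2) ≤ s)
    (hP : 3 / 4 ≤ satProb (j + 1) n ⌊(ρ - ε) * n⌋₊) :
    1 / 2 ≤ satProb (j + 1) (n + T) ⌊(ρ - 2 * ε) * ((n + T : ℕ) : ℝ)⌋₊ := by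
  have hS : (1:ℝ) ≤ s := by exact_mod_cast hs1
  have hS0 : (0:ℝ) < s := by linarith
  have hnS : (s:ℝ) ^ (4 * (j + 1) + 6) ≤ n := by exact_mod_cast hsa
  have hpow5 : s ^ 5 ≤ s ^ (4 * (j + 1) + 6) := Nat.pow_le_pow_right hs1 (by omega)
  have hn5 : s ^ 5 ≤ n := hpow5.trans hsa
  have hn1 : 1 ≤ n := (Nat.one_le_pow _ _ hs1).trans hn5
  have hn0 : (0:ℝ) < n := by exact_mod_cast hn1
  have hs4le : s ^ 4 * (2 * (j + 1)) ≤ n := by
    calc s ^ 4 * (2 * (j + 1)) ≤ s ^ 4 * s := Nat.mul_le_mul_left _ hs2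
      _ = s ^ 5 := by ring
      _ ≤ n := hn5
  have hjn : j + 1 ≤ n := by
    have : 1 ≤ s ^ 4 := Nat.one_le_pow _ _ hs1
    nlinarith
  by_cases hcase : ρ - 2 * ε ≤ 0
  · have : ⌊(ρ - 2 * ε) * ((n + T : ℕ) : ℝ)⌋₊ = 0 :=
      Nat.floor_of_nonpos (mul_nonpos_of_nonpos_of_nonneg hcase (by positivity))
    rw [this, satProb_zero]
    norm_num
  push Not at hcase
  set L := s ^ 4 with hL
  set J := s ^ 2 with hJ
  set t := (4 * s ^ 4) ^ (j + 1) with ht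
  set δ : ℝ := 1 / (s:ℝ) ^ 4 with hδ
  have hδ0 : 0 < δ := by positivity
  have hδ1 : δ ≤ 1 := by
    rw [hδ, div_le_one (by positivity)]
    exact one_le_pow₀ hS
  have hδn : 2 * ((j:ℝ) + 1) ≤ δ * n := by
    rw [hδ, div_mul_eq_mul_div, one_mul, le_div_iff₀ (by positivity)]
    have : ((s ^ 4 * (2 * (j + 1)) : ℕ) : ℝ) ≤ n := by exact_mod_cast hs4le
    push_cast at this
    linarith
  have hLpos : 0 < L := by positivity
  have htδ : 1 ≤ (t:ℝ) * (δ / 4) ^ (j + 1) := by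
    have : (t:ℝ) * (δ / 4) ^ (j + 1) = 1 := by
      rw [ht, hδ]
      push_cast
      rw [← mul_pow]
      have : 4 * (s:ℝ) ^ 4 * (1 / (s:ℝ) ^ 4 / 4) = 1 := by
        field_simp
      rw [this, one_pow]
    exact this.ge
  set m := ⌊(ρ - 2 * ε) * ((n + T : ℕ) : ℝ)⌋₊ with hm
  have hmain := lower_iter hj hjn hδ0 hδ1 hδn hLpos htδ J T m
  obtain ⟨hTLr, hTn⟩ := lower_shift (j := j) hε hR hs1 hsa hT hs3 hs4
  have hmle : (m:ℝ) ≤ (ρ - 2 * ε) * ((n + T : ℕ) : ℝ) :=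
    Nat.floor_le (by positivity)
  have hTLr' : ((T * (L * t) : ℕ) : ℝ) ≤ ε / 2 * n := hTLr
  have hM : m + T * (L * t) ≤ ⌊(ρ - ε) * n⌋₊ := by
    apply Nat.le_floor
    have hTnn : (0:ℝ) ≤ T := by positivity
    have h1 : (ρ - 2 * ε) * T ≤ R * T := mul_le_mul_of_nonneg_right (by linarith) hTnn
    rw [Nat.cast_add]
    push_cast at hmle
    linarith
  have hPM : 3 / 4 ≤ satProb (j + 1) n (m + T * (L * t)) :=
    hP.trans (satProb_anti hjn hM)
  -- the error term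
  have hMr : ((m + T * (L * t) : ℕ) : ℝ) ≤ R * n := by
    have h1 : ((m + T * (L * t) : ℕ) : ℝ) ≤ (⌊(ρ - ε) * n⌋₊ : ℝ) := by exact_mod_cast hM
    have h2 : (⌊(ρ - ε) * n⌋₊ : ℝ) ≤ (ρ - ε) * n :=
      Nat.floor_le (mul_nonneg (by linarith) hn0.le)
    have h3 : (ρ - ε) * n ≤ R * n :=
      mul_le_mul_of_nonneg_right (by linarith) hn0.le
    linarith
  have hJr : (J:ℝ) = (s:ℝ) ^ 2 := by rw [hJ]; push_cast; ring
  have hLr : (L:ℝ) = (s:ℝ) ^ 4 := by rw [hL]; push_cast; ring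
  have herr := lower_err (n := n) (κ := (j:ℝ) + 1) hR (by positivity) hs1 hJr hLr hδ hT hs5 hMr
  push_cast at hmain herr
  linarith

/-- The upper claim at a given `n`. -/
lemma upper_claim {n s T : ℕ} {ρ ε R : ℝ} (hε : 0 < ε) (hρ : ρ ≤ R) (hρ0 : 0 ≤ ρ + ε) (hR : 0 < R)
    (hsa : s ^ (4 * (j + 1) + 6) ≤ n) (hT : T ≤ s) (hs1 : 1 ≤ s)
    (hs3 : 2 / ε ≤ s) (hs4 : 8 * (R + 2 * ε) * (j + 1) ≤ s) (hjn : j + 1 ≤ n)
    (hP : satProb (j + 1) n ⌊(ρ + ε) * n⌋₊ ≤ 1 / 4) :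
    satProb (j + 1) (n + T) ⌊(ρ + 2 * ε) * ((n + T : ℕ) : ℝ)⌋₊ ≤ 1 / 2 := by
  have hS : (1:ℝ) ≤ s := by exact_mod_cast hs1
  have hS0 : (0:ℝ) < s := by linarith
  have hpow4 : s ^ 4 ≤ s ^ (4 * (j + 1) + 6) := Nat.pow_le_pow_right hs1 (by omega)
  have hn4 : s ^ 4 ≤ n := hpow4.trans hsa
  have hn1 : 1 ≤ n := (Nat.one_le_pow _ _ hs1).trans hn4
  have hn0 : (0:ℝ) < n := by exact_mod_cast hn1
  set J := s ^ 2 with hJ
  have hJ1 : 1 ≤ J := Nat.one_le_pow _ _ hs1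
  have hJr : (J:ℝ) = (s:ℝ) ^ 2 := by rw [hJ]; push_cast; ring
  have hTs : (T:ℝ) ≤ s := by exact_mod_cast hT
  set m := ⌊(ρ + 2 * ε) * ((n + T : ℕ) : ℝ)⌋₊ with hm
  have hpos : 0 ≤ (ρ + 2 * ε) * ((n + T : ℕ) : ℝ) :=
    mul_nonneg (by linarith) (by positivity)
  have hmle : (m:ℝ) ≤ (ρ + 2 * ε) * ((n + T : ℕ) : ℝ) := Nat.floor_le hpos
  have hmlt : (ρ + 2 * ε) * ((n + T : ℕ) : ℝ) < m + 1 := Nat.lt_floor_add_one _
  have hm1 : (⌊(ρ + ε) * n⌋₊ : ℝ) ≤ (ρ + ε) * n := Nat.floor_le (mul_nonneg hρ0 hn0.le)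
  have hs34 : (s:ℝ) ^ 4 ≤ n := by exact_mod_cast hn4
  have hTJ : (T:ℝ) * J ≤ ε / 2 * n := by
    rw [hJr]
    have h1 : 2 ≤ s * ε := by
      rw [div_le_iff₀ hε] at hs3
      exact hs3
    have h2 : (s:ℝ) ^ 3 * s ≤ (ε / 2 * n) * s := by
      have : (s:ℝ) ^ 3 * s = (s:ℝ) ^ 4 := by ring
      rw [this]
      nlinarith
    have h3 : (s:ℝ) ^ 3 ≤ ε / 2 * n := le_of_mul_le_mul_right h2 hS0
    have h4 : (T:ℝ) * (s:ℝ) ^ 2 ≤ s * (s:ℝ) ^ 2 :=
      mul_le_mul_of_nonneg_right hTs (by positivity)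
    have h5 : (s:ℝ) * (s:ℝ) ^ 2 = (s:ℝ) ^ 3 := by ring
    linarith
  have hone : 1 ≤ ε / 2 * n := by
    have h1 : 2 ≤ s * ε := by
      rw [div_le_iff₀ hε] at hs3
      exact hs3
    have h2 : (s:ℝ) ≤ (s:ℝ) ^ 4 := by
      have : s ≤ s ^ 4 := Nat.le_self_pow (by norm_num) s
      exact_mod_cast this
    nlinarith
  have hle : ⌊(ρ + ε) * n⌋₊ ≤ m - T * J := by
    apply Nat.le_sub_of_add_le
    have : ((⌊(ρ + ε) * n⌋₊ + T * J : ℕ) : ℝ) < ((m + 1 : ℕ) : ℝ) := by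
      push_cast at hmlt ⊢
      have hTnn : (0:ℝ) ≤ T := by positivity
      nlinarith
    have := Nat.cast_lt.mp this
    omega
  have h1 := upper_iter hjn J hJ1 T m
  have h2 : satProb (j + 1) n (m - T * J) ≤ 1 / 4 := (satProb_anti hjn hle).trans hP
  -- the error
  have hTn : (T:ℝ) ≤ n := by
    have : s ≤ s ^ 4 := Nat.le_self_pow (by norm_num) s
    have h3 : T ≤ n := hT.trans (this.trans hn4)
    exact_mod_cast h3
  have hmR : (m:ℝ) ≤ (R + 2 * ε) * (2 * n) := by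
    have h3 : (ρ + 2 * ε) * ((n + T : ℕ) : ℝ) ≤ (R + 2 * ε) * (2 * n) := by
      push_cast
      apply mul_le_mul (by linarith) (by linarith) (by positivity) (by positivity)
    linarith
  have herr : (T:ℝ) * ((m:ℝ) * (j + 1) / (((n:ℝ) + 1) * J)) ≤ 1 / 4 := by
    rw [hJr]
    have h3 : (m:ℝ) * (j + 1) / (((n:ℝ) + 1) * (s:ℝ) ^ 2)
        ≤ (2 * (R + 2 * ε) * (j + 1)) / (s:ℝ) ^ 2 := by
      rw [div_le_div_iff₀ (by positivity) (by positivity)]
      have h4 : (m:ℝ) * (j + 1) * (s:ℝ) ^ 2 ≤ ((R + 2 * ε) * (2 * n)) * (j + 1) * (s:ℝ) ^ 2 := by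
        apply mul_le_mul_of_nonneg_right _ (by positivity)
        exact mul_le_mul_of_nonneg_right hmR (by positivity)
      have h5 : (0:ℝ) ≤ (R + 2 * ε) * (j + 1) * (s:ℝ) ^ 2 := by positivity
      nlinarith
    calc (T:ℝ) * ((m:ℝ) * (j + 1) / (((n:ℝ) + 1) * (s:ℝ) ^ 2))
        ≤ (s:ℝ) * ((2 * (R + 2 * ε) * (j + 1)) / (s:ℝ) ^ 2) :=
          mul_le_mul hTs h3 (by positivity) hS0.le
      _ = (2 * (R + 2 * ε) * (j + 1)) / s := by
          field_simp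
      _ ≤ 1 / 4 := by
          rw [div_le_iff₀ hS0]
          nlinarith
  linarith

/-- The main theorem: threshold sequences vary slowly. -/
theorem slow_variation (hj : 1 ≤ j) {r : ℕ → ℝ} (hr : IsThresholdSeq (j + 1) r) {T : ℕ → ℕ}
    (hT : ∀ᶠ n in atTop, (T n) ^ (4 * (j + 1) + 6) ≤ n) :
    Tendsto (fun n => r (n + T n) - r n) atTop (𝓝 0) := by
  rw [Metric.tendsto_nhds]
  intro ε' hε'
  set ε := ε' / 4 with hε_def
  have hε : 0 < ε := by positivity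
  obtain ⟨R, hR, hrR⟩ := threshold_bounded (by omega) hr
  set a := 4 * (j + 1) + 6 with ha
  have ha0 : 0 < a := by omega
  -- the eventual facts at `n` and at `n + T n`
  have h1 : ∀ᶠ n : ℕ in atTop, satProb (j + 1) n ⌊(r n + ε) * n⌋₊ < 1 / 4 :=
    (hr ε hε).2.eventually (gt_mem_nhds (by norm_num))
  have h2 : ∀ᶠ n : ℕ in atTop, 3 / 4 < satProb (j + 1) n ⌊(r n - ε) * n⌋₊ :=
    (hr ε hε).1.eventually (lt_mem_nhds (by norm_num))
  obtain ⟨N₁, hN₁⟩ := eventually_atTop.mp h1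
  obtain ⟨N₂, hN₂⟩ := eventually_atTop.mp h2
  -- the scale is large
  set s₀ : ℕ := max (max 1 (2 * (j + 1))) ⌈max (max (2 * (4:ℝ) ^ (j + 1) / ε) (2 * R / ε))
      (max (4 * (3 + R * (j + 1) / 2)) (max (2 / ε) (8 * (R + 2 * ε) * (j + 1))))⌉₊ with hs₀
  filter_upwards [hT, scale_tendsto ha0 s₀, eventually_ge_atTop N₁, eventually_ge_atTop N₂,
    hrR, eventually_ge_atTop (j + 1), eventually_ge_atTop 1] with n hTn hsn hn1 hn2 hrn hjn hn_one
  set s := scale a n with hs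
  have hsa : s ^ a ≤ n := scale_pow_le a n ha0
  have hTs : T n ≤ s := le_scale ha0 hTn
  have hs1 : 1 ≤ s := (le_max_left _ _).trans ((le_max_left _ _).trans hsn)
  have hs2 : 2 * (j + 1) ≤ s := (le_max_right _ _).trans ((le_max_left _ _).trans hsn)
  have hsc : max (max (2 * (4:ℝ) ^ (j + 1) / ε) (2 * R / ε))
      (max (4 * (3 + R * (j + 1) / 2)) (max (2 / ε) (8 * (R + 2 * ε) * (j + 1)))) ≤ s := by
    refine (Nat.le_ceil _).trans ?_
    exact_mod_cast (le_max_right _ _).trans hsn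
  have hs3 : 2 * (4:ℝ) ^ (j + 1) / ε ≤ s :=
    (le_max_left _ _).trans ((le_max_left _ _).trans hsc)
  have hs4 : 2 * R / ε ≤ s := (le_max_right _ _).trans ((le_max_left _ _).trans hsc)
  have hs5 : 4 * (3 + R * (j + 1) / 2) ≤ s :=
    (le_max_left _ _).trans ((le_max_right _ _).trans hsc)
  have hs6 : 2 / ε ≤ s :=
    (le_max_left _ _).trans ((le_max_right _ _).trans ((le_max_right _ _).trans hsc))
  have hs7 : 8 * (R + 2 * ε) * (j + 1) ≤ s :=
    (le_max_right _ _).trans ((le_max_right _ _).trans ((le_max_right _ _).trans hsc))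
  set n' := n + T n with hn'
  have hn'1 : N₁ ≤ n' := hn1.trans (Nat.le_add_right _ _)
  have hn'2 : N₂ ≤ n' := hn2.trans (Nat.le_add_right _ _)
  have hjn' : j + 1 ≤ n' := hjn.trans (Nat.le_add_right _ _)
  have hn'cast : (0:ℝ) ≤ (n':ℝ) := by positivity
  -- lower direction
  have hL : r n - 3 * ε ≤ r n' := by
    by_contra hcon
    push Not at hcon
    have hlow := lower_claim hj hε hrn hR hsa hTs hs1 hs2 hs3 hs4 hs5 (hN₂ n hn2).le
    have hmono : ⌊(r n' + ε) * n'⌋₊ ≤ ⌊(r n - 2 * ε) * ((n + T n : ℕ) : ℝ)⌋₊ := by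
      apply Nat.floor_le_floor
      apply mul_le_mul_of_nonneg_right _ hn'cast
      linarith
    have h3 := satProb_anti hjn' hmono
    have h4 := hN₁ n' hn'1
    linarith
  -- upper direction
  have hρ0 : 0 ≤ r n + ε := by
    by_contra hneg
    push Not at hneg
    have : ⌊(r n + ε) * n⌋₊ = 0 :=
      Nat.floor_of_nonpos (mul_nonpos_of_nonpos_of_nonneg hneg.le (by positivity))
    have h3 := hN₁ n hn1
    rw [this, satProb_zero] at h3
    norm_num at h3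
  have hU : r n' ≤ r n + 3 * ε := by
    by_contra hcon
    push Not at hcon
    have hup := upper_claim (j := j) hε hrn hρ0 hR hsa hTs hs1 hs6 hs7 hjn (hN₁ n hn1).le
    have hmono : ⌊(r n + 2 * ε) * ((n + T n : ℕ) : ℝ)⌋₊ ≤ ⌊(r n' - ε) * n'⌋₊ := by
      apply Nat.floor_le_floor
      apply mul_le_mul_of_nonneg_right _ hn'cast
      linarith
    have h3 := satProb_anti hjn' hmono
    have h4 := hN₂ n' hn'2
    linarith
  rw [Real.dist_eq, sub_zero, abs_lt]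
  constructor <;> linarith

end Vale.Agent.Lib.P170
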