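import Vale.Agent.Lib.P170.Defs

/-! Averaging operators on functions of solution sets. -/

set_option linter.unusedSectionVars false

namespace Vale.Agent.Lib.P170

open Finset

section Ops

variable {α ι ι' : Type*} [DecidableEq α] [Fintype ι] [Fintype ι']

/-- Averaging over one constraint. -/
noncomputable def op (sol : ι → Finset α) (g : Finset α → ℝ) (S : Finset α) : ℝ :=
  (∑ x, g (S ∩ sol x)) / (Fintype.card ι : ℝ)

/-- The non-emptiness indicator. -/
def nonemptyInd (S : Finset α) : ℝ := if S.Nonempty then 1 else 0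

/-- Positive linear operators that fix constants. -/
structure IsMk (W : (Finset α → ℝ) → (Finset α → ℝ)) : Prop where
  mono : ∀ g h, (∀ S, g S ≤ h S) → ∀ S, W g S ≤ W h S
  add : ∀ g h, W (fun S => g S + h S) = fun S => W g S + W h S
  smul : ∀ (c : ℝ) g, W (fun S => c * g S) = fun S => c * W g S
  const : ∀ c : ℝ, W (fun _ => c) = fun _ => c

lemma IsMk.id : IsMk (id : (Finset α → ℝ) → (Finset α → ℝ)) :=
  ⟨fun _ _ h S => h S, fun _ _ => rfl, fun _ _ => rfl, fun _ => rfl⟩

lemma IsMk.comp {V W : (Finset α → ℝ) → (Finset α → ℝ)} (hV : IsMk V) (hW : IsMk W) :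
    IsMk (V ∘ W) :=
  ⟨fun g h hgh S => hV.mono _ _ (hW.mono g h hgh) S,
   fun g h => by simp only [Function.comp_def, hW.add, hV.add],
   fun c g => by simp only [Function.comp_def, hW.smul, hV.smul],
   fun c => by simp only [Function.comp_def, hW.const, hV.const]⟩

lemma IsMk.iterate {W : (Finset α → ℝ) → (Finset α → ℝ)} (hW : IsMk W) (m : ℕ) : IsMk (W^[m]) := by
  induction m with
  | zero => exact IsMk.id
  | succ m ih => rw [Function.iterate_succ]; exact ih.comp hW

lemma op_isMk (sol : ι → Finset α) (hι : 0 < Fintype.card ι) : IsMk (op sol) := by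
  have hc : (0:ℝ) < Fintype.card ι := by exact_mod_cast hι
  refine ⟨?_, ?_, ?_, ?_⟩
  · intro g h hgh S
    unfold op
    apply div_le_div_of_nonneg_right _ hc.le
    exact Finset.sum_le_sum (fun x _ => hgh _)
  · intro g h
    funext S
    unfold op
    rw [Finset.sum_add_distrib, add_div]
  · intro c g
    funext S
    unfold op
    rw [← Finset.mul_sum, mul_div_assoc]
  · intro c
    funext S
    unfold op
    simp only [Finset.sum_const, Finset.card_univ, nsmul_eq_mul]
    field_simp

lemma op_comm (sol : ι → Finset α) (sol' : ι' → Finset α) :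
    Function.Commute (op sol) (op sol') := by
  intro g
  funext S
  unfold op
  simp only [Finset.sum_div]
  rw [Finset.sum_comm]
  refine Finset.sum_congr rfl fun x _ => Finset.sum_congr rfl fun y _ => ?_
  rw [Finset.inter_right_comm, div_right_comm]

/-- Monotone functions of the solution set. -/
def MonoFn (g : Finset α → ℝ) : Prop := ∀ S T, S ⊆ T → g S ≤ g T

/-- Functions of the solution set that are monotone with values in `[0,1]`, and zero on `∅`. -/
structure Valid (g : Finset α → ℝ) : Prop where
  mono : MonoFn g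
  nonneg : ∀ S, 0 ≤ g S
  le_one : ∀ S, g S ≤ 1
  empty : g ∅ = 0

lemma valid_nonemptyInd : Valid (nonemptyInd : Finset α → ℝ) := by
  refine ⟨?_, ?_, ?_, ?_⟩
  · intro S T hST
    unfold nonemptyInd
    by_cases hS : S.Nonempty
    · rw [if_pos hS, if_pos (hS.mono hST)]
    · rw [if_neg hS]; split_ifs <;> norm_num
  · intro S; unfold nonemptyInd; split_ifs <;> norm_num
  · intro S; unfold nonemptyInd; split_ifs <;> norm_num
  · simp [nonemptyInd]

lemma op_valid (sol : ι → Finset α) (hι : 0 < Fintype.card ι) {g : Finset α → ℝ} (hg : Valid g) :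
    Valid (op sol g) := by
  have hc : (0:ℝ) < Fintype.card ι := by exact_mod_cast hι
  refine ⟨?_, ?_, ?_, ?_⟩
  · intro S T hST
    unfold op
    apply div_le_div_of_nonneg_right _ hc.le
    exact Finset.sum_le_sum (fun x _ => hg.mono _ _ (Finset.inter_subset_inter_right hST))
  · intro S
    unfold op
    exact div_nonneg (Finset.sum_nonneg fun x _ => hg.nonneg _) hc.le
  · intro S
    unfold op
    rw [div_le_one hc]
    calc ∑ x, g (S ∩ sol x) ≤ ∑ _x : ι, (1:ℝ) := Finset.sum_le_sum fun x _ => hg.le_one _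
      _ = Fintype.card ι := by simp
  · unfold op
    simp [hg.empty]

lemma iter_valid (sol : ι → Finset α) (hι : 0 < Fintype.card ι) {g : Finset α → ℝ} (hg : Valid g)
    (m : ℕ) : Valid ((op sol)^[m] g) := by
  induction m with
  | zero => exact hg
  | succ m ih => rw [Function.iterate_succ_apply']; exact op_valid sol hι ih

lemma op_le_self (sol : ι → Finset α) (hι : 0 < Fintype.card ι) {g : Finset α → ℝ} (hg : MonoFn g)
    (S : Finset α) : op sol g S ≤ g S := by
  have hc : (0:ℝ) < Fintype.card ι := by exact_mod_cast hι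
  unfold op
  rw [div_le_iff₀ hc]
  calc ∑ x, g (S ∩ sol x) ≤ ∑ _x : ι, g S :=
        Finset.sum_le_sum fun x _ => hg _ _ Finset.inter_subset_left
    _ = g S * Fintype.card ι := by simp [mul_comm]

lemma iter_anti (sol : ι → Finset α) (hι : 0 < Fintype.card ι) {g : Finset α → ℝ} (hg : Valid g)
    (S : Finset α) {m m' : ℕ} (h : m ≤ m') : (op sol)^[m'] g S ≤ (op sol)^[m] g S := by
  induction h with
  | refl => exact le_rfl
  | step _ ih =>
    rw [Function.iterate_succ_apply']
    exact (op_le_self sol hι (iter_valid sol hι hg _).mono S).trans ih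

/-- The combinatorial recursion. -/
lemma key_step (sol : ι → Finset α) (sol' : ι' → Finset α) (hι : 0 < Fintype.card ι)
    (hι' : 0 < Fintype.card ι') {t : ℕ} {η : ℝ}
    (hstar : ∀ S, 2 * ((op sol)^[t] nonemptyInd) S ≤
      op sol' nonemptyInd S + nonemptyInd S + η) (m j : ℕ) (S : Finset α) :
    2 * ((op sol)^[m + t] ((op sol')^[j] nonemptyInd)) S ≤
      ((op sol)^[m] ((op sol')^[j + 1] nonemptyInd)) S +
        ((op sol)^[m] ((op sol')^[j] nonemptyInd)) S + η := by
  set A := op sol with hA
  set B := op sol' with hB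
  have hAk : IsMk A := op_isMk sol hι
  have hBk : IsMk B := op_isMk sol' hι'
  have hW : IsMk (A^[m] ∘ B^[j]) := (hAk.iterate m).comp (hBk.iterate j)
  have hcomm : Function.Commute (B^[j]) (A^[t]) := (op_comm sol' sol).iterate_iterate j t
  have h1 := hW.mono _ _ hstar S
  rw [hW.smul] at h1
  have e2 : (fun S => B nonemptyInd S + nonemptyInd S + η)
      = (fun S => (fun S => B nonemptyInd S + nonemptyInd S) S + (fun _ => η) S) := rfl
  rw [e2, hW.add, hW.add, hW.const] at h1
  simp only [Function.comp_apply] at h1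
  have e3 : B^[j] (A^[t] nonemptyInd) = A^[t] (B^[j] nonemptyInd) := hcomm nonemptyInd
  have e4 : B^[j] (B nonemptyInd) = B^[j + 1] nonemptyInd := by
    rw [Function.iterate_succ_apply]
  rw [e3, e4, ← Function.iterate_add_apply] at h1
  exact h1

end Ops

/-- The averaging recursion on a real array. -/
lemma array_bound (v : ℕ → ℕ → ℝ) (t L : ℕ) (hL : 0 < L) (η : ℝ)
    (h1 : ∀ m j, 2 * v (m + t) j ≤ v m (j + 1) + v m j + η)
    (h2 : ∀ j m m', m ≤ m' → v m' j ≤ v m j)
    (h3 : ∀ m j, 0 ≤ v m j) (h4 : ∀ m j, v m j ≤ 1) (m₀ J : ℕ) :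
    v (m₀ + L * t) 0 - J * (η + 2 / L) ≤ v m₀ J := by
  have hL' : (0:ℝ) < L := by exact_mod_cast hL
  set Sg : ℕ → ℝ := fun j => ∑ i ∈ Finset.range L, v (m₀ + i * t) j with hSg
  have step : ∀ j, Sg j - (2 + L * η) ≤ Sg (j + 1) := by
    intro j
    have hs : ∑ i ∈ Finset.range L, (2 * v (m₀ + i * t + t) j) ≤
        ∑ i ∈ Finset.range L, (v (m₀ + i * t) (j + 1) + v (m₀ + i * t) j + η) :=
      Finset.sum_le_sum fun i _ => h1 _ _
    have htel : ∑ i ∈ Finset.range L, v (m₀ + i * t + t) j
        = Sg j + v (m₀ + L * t) j - v m₀ j := by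
      have : ∀ n : ℕ, ∑ i ∈ Finset.range n, v (m₀ + i * t + t) j
          = ∑ i ∈ Finset.range n, v (m₀ + i * t) j + v (m₀ + n * t) j - v m₀ j := by
        intro n
        induction n with
        | zero => simp
        | succ n ih =>
          rw [Finset.sum_range_succ, Finset.sum_range_succ, ih]
          have : m₀ + (n + 1) * t = m₀ + n * t + t := by ring
          rw [this]
          ring
      exact this L
    rw [← Finset.mul_sum, htel, Finset.sum_add_distrib, Finset.sum_add_distrib] at hs
    simp only [Finset.sum_const, Finset.card_range, nsmul_eq_mul] at hs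
    have h5 := h3 (m₀ + L * t) j
    have h6 := h4 m₀ j
    simp only [hSg]
    nlinarith
  have hind : ∀ J : ℕ, Sg 0 - J * (2 + L * η) ≤ Sg J := by
    intro J
    induction J with
    | zero => simp
    | succ J ih =>
      have := step J
      push_cast
      nlinarith
  have hup : Sg J ≤ L * v m₀ J := by
    calc Sg J ≤ ∑ _i ∈ Finset.range L, v m₀ J :=
          Finset.sum_le_sum fun i _ => h2 J _ _ (Nat.le_add_right _ _)
      _ = L * v m₀ J := by simp
  have hlo : L * v (m₀ + L * t) 0 ≤ Sg 0 := by
    calc L * v (m₀ + L * t) 0 = ∑ _i ∈ Finset.range L, v (m₀ + L * t) 0 := by simp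
      _ ≤ Sg 0 := by
        refine Finset.sum_le_sum fun i hi => h2 0 _ _ ?_
        have : i ≤ L := (Finset.mem_range.mp hi).le
        have := Nat.mul_le_mul_right t this
        omega
  have h7 := hind J
  have h8 : L * (v (m₀ + L * t) 0 - J * (η + 2 / L)) ≤ L * v m₀ J := by
    have : L * (v (m₀ + L * t) 0 - J * (η + 2 / L))
        = L * v (m₀ + L * t) 0 - J * (2 + L * η) := by
      field_simp
      ring
    rw [this]
    linarith
  exact le_of_mul_le_mul_left h8 hL'

end Vale.Agent.Lib.P170
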