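import Vale.Agent.Lib.P170.Lift

/-! One-variable comparison inequalities. -/

set_option linter.unusedSectionVars false

namespace Vale.Agent.Lib.P170

open Finset

open Classical

variable {α ι : Type*} [DecidableEq α] [Fintype ι]

/-- Iterated averaging as an average over sequences of constraints. -/
lemma seq_eq [Fintype α] (sol : ι → Finset α) (m : ℕ) (S : Finset α) :
    (op sol)^[m] nonemptyInd S =
      (∑ F : Fin m → ι, nonemptyInd (S.filter (fun a => ∀ j, a ∈ sol (F j)))) /
        (Fintype.card ι : ℝ) ^ m := by
  induction m generalizing S with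
  | zero =>
    simp
  | succ m ih =>
    rw [Function.iterate_succ_apply']
    change (∑ x, ((op sol)^[m] nonemptyInd) (S ∩ sol x)) / (Fintype.card ι : ℝ) = _
    simp only [ih]
    rw [← Fintype.sum_equiv (Fin.consEquiv (fun _ : Fin (m + 1) => ι))
      (fun p : ι × (Fin m → ι) => nonemptyInd
        (S.filter (fun a => ∀ j, a ∈ sol ((Fin.consEquiv (fun _ : Fin (m + 1) => ι)) p j))))
      _ (fun _ => rfl)]
    rw [Fintype.sum_prod_type, ← Finset.sum_div, div_div, pow_succ, mul_comm (_ ^ m) _]
    rw [mul_comm]
    congr 1
    refine Finset.sum_congr rfl fun x _ => Finset.sum_congr rfl fun F _ => ?_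
    congr 1
    ext a
    have e0 : ((Fin.consEquiv (fun _ : Fin (m + 1) => ι)) (x, F)) 0 = x := rfl
    have e1 : ∀ i : Fin m, ((Fin.consEquiv (fun _ : Fin (m + 1) => ι)) (x, F)) i.succ = F i :=
      fun i => rfl
    simp only [Finset.mem_filter, Finset.mem_inter, Fin.forall_fin_succ, e0, e1]
    tauto

variable {n j : ℕ}

/-- The satisfiability probability through the averaging operator. -/
lemma satProb_eq (k n m : ℕ) :
    satProb k n m = (op (solSet : ProperClause n k → _))^[m] nonemptyInd univ := by
  rw [seq_eq]
  unfold satProb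
  congr 1
  rw [Finset.card_filter]
  push_cast
  refine Finset.sum_congr rfl fun F _ => ?_
  unfold nonemptyInd
  have : (Satisfiable F) ↔ (univ.filter (fun a => ∀ j, a ∈ solSet (F j))).Nonempty := by
    constructor
    · rintro ⟨a, ha⟩
      exact ⟨a, by simpa [solSet] using ha⟩
    · rintro ⟨a, ha⟩
      exact ⟨a, by simpa [solSet] using ha⟩
  simp only [this]

/-- The operator for setting the last variable true. -/
noncomputable def solExt {k : ℕ} (C : ProperClause (n + 1) k) : Finset (Fin n → Bool) :=
  univ.filter (fun a => C.Holds (extA a))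

/-- The operator that projects away the last variable. -/
noncomputable def solProj {k : ℕ} (C : ProperClause (n + 1) k) : Finset (Fin n → Bool) :=
  univ.filter (fun a => ∃ a', projA a' = a ∧ C.Holds a')

lemma solExt_liftC {k : ℕ} (c : ProperClause n k) : solExt (liftC c) = solSet c := by
  ext a
  simp [solExt, solSet, holds_liftC, projA_extA]

lemma solExt_insC_true {k : ℕ} (c : ProperClause n k) : solExt (insC true c) = univ := by
  ext a
  simp [solExt, holds_insC, projA_extA]

lemma solExt_insC_false {k : ℕ} (c : ProperClause n k) : solExt (insC false c) = solSet c := by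
  ext a
  simp [solExt, solSet, holds_insC, projA_extA]

lemma solProj_liftC {k : ℕ} (c : ProperClause n k) : solProj (liftC c) = solSet c := by
  ext a
  simp only [solProj, solSet, Finset.mem_filter, Finset.mem_univ, true_and, holds_liftC]
  constructor
  · rintro ⟨a', rfl, h⟩
    exact h
  · intro h
    exact ⟨extA a, projA_extA a, by rwa [projA_extA]⟩

lemma solProj_insC {k : ℕ} (b : Bool) (c : ProperClause n k) : solProj (insC b c) = univ := by
  ext a
  simp only [solProj, Finset.mem_filter, Finset.mem_univ, true_and, holds_insC, iff_true]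
  refine ⟨fun i => Fin.lastCases b a i, ?_, Or.inl (by simp)⟩
  funext i
  simp [projA]

/-- Ratios of clause counts. -/
lemma card_ratio (n j : ℕ) (hn : j + 1 ≤ n + 1) :
    (Fintype.card (ProperClause n j) : ℝ) / Fintype.card (ProperClause (n + 1) (j + 1))
      = (j + 1) / (2 * (n + 1)) := by
  have h1 := Nat.add_one_mul_choose_eq n j
  have h2 : 0 < (n + 1).choose (j + 1) := Nat.choose_pos hn
  rw [card_clause, card_clause]
  have h3 : ((n + 1 : ℝ)) * (n.choose j : ℝ) = ((n + 1).choose (j + 1) : ℝ) * (j + 1) := by
    have := h1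
    exact_mod_cast this
  have h2' : (0:ℝ) < ((n + 1).choose (j + 1) : ℝ) := by exact_mod_cast h2
  push_cast
  rw [div_eq_div_iff (by positivity) (by positivity)]
  have h4 : (2:ℝ) ^ (j + 1) = 2 ^ j * 2 := pow_succ 2 j
  rw [h4]
  have h5 : (0:ℝ) < 2 ^ j := by positivity
  calc (2:ℝ) ^ j * (n.choose j : ℝ) * (2 * (n + 1))
      = 2 ^ j * 2 * (((n + 1 : ℝ)) * (n.choose j : ℝ)) := by ring
    _ = 2 ^ j * 2 * (((n + 1).choose (j + 1) : ℝ) * (j + 1)) := by rw [h3]
    _ = (j + 1) * (2 ^ j * 2 * ((n + 1).choose (j + 1) : ℝ)) := by ring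

lemma card_sum (n j : ℕ) :
    (Fintype.card (ProperClause n (j + 1)) : ℝ) + 2 * Fintype.card (ProperClause n j)
      = Fintype.card (ProperClause (n + 1) (j + 1)) := by
  rw [card_clause_succ]
  push_cast
  ring

/-- Decomposition of the last-variable-true operator. -/
lemma opExt_eq (g : Finset (Fin n → Bool) → ℝ) (S : Finset (Fin n → Bool)) (hn : j + 1 ≤ n)
    {π₀ q : ℝ}
    (hπ : π₀ = (Fintype.card (ProperClause n (j + 1)) : ℝ) /
      Fintype.card (ProperClause (n + 1) (j + 1)))
    (hq : q = (Fintype.card (ProperClause n j) : ℝ) /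
      Fintype.card (ProperClause (n + 1) (j + 1))) :
    op (solExt : ProperClause (n + 1) (j + 1) → _) g S
      = π₀ * op (solSet : ProperClause n (j + 1) → _) g S + q * g S
        + q * op (solSet : ProperClause n j → _) g S := by
  have hc0 : (0:ℝ) < Fintype.card (ProperClause n (j + 1)) := by
    exact_mod_cast card_clause_pos hn
  have hc1 : (0:ℝ) < Fintype.card (ProperClause n j) := by
    exact_mod_cast card_clause_pos (by omega)
  have hc2 : (0:ℝ) < Fintype.card (ProperClause (n + 1) (j + 1)) := by
    exact_mod_cast card_clause_pos (by omega)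
  unfold op
  rw [sum_decomp]
  simp only [solExt_liftC, solExt_insC_true, solExt_insC_false, Finset.inter_univ,
    Finset.sum_const, Finset.card_univ, nsmul_eq_mul]
  rw [hπ, hq]
  field_simp
  ring

/-- Decomposition of the projection operator. -/
lemma opProj_eq (g : Finset (Fin n → Bool) → ℝ) (S : Finset (Fin n → Bool)) (hn : j + 1 ≤ n)
    {π₀ q : ℝ}
    (hπ : π₀ = (Fintype.card (ProperClause n (j + 1)) : ℝ) /
      Fintype.card (ProperClause (n + 1) (j + 1)))
    (hq : q = (Fintype.card (ProperClause n j) : ℝ) /
      Fintype.card (ProperClause (n + 1) (j + 1))) :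
    op (solProj : ProperClause (n + 1) (j + 1) → _) g S
      = π₀ * op (solSet : ProperClause n (j + 1) → _) g S + 2 * q * g S := by
  have hc0 : (0:ℝ) < Fintype.card (ProperClause n (j + 1)) := by
    exact_mod_cast card_clause_pos hn
  have hc1 : (0:ℝ) < Fintype.card (ProperClause n j) := by
    exact_mod_cast card_clause_pos (by omega)
  have hc2 : (0:ℝ) < Fintype.card (ProperClause (n + 1) (j + 1)) := by
    exact_mod_cast card_clause_pos (by omega)
  unfold op
  rw [sum_decomp]
  simp only [solProj_liftC, solProj_insC, Finset.inter_univ,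
    Finset.sum_const, Finset.card_univ, nsmul_eq_mul]
  rw [hπ, hq]
  field_simp
  ring

/-- Satisfiable with the last variable true implies satisfiable. -/
lemma ext_le_full {k : ℕ} (m : ℕ) (S : Finset (Fin n → Bool))
    (S' : Finset (Fin (n + 1) → Bool)) (h : ∀ a ∈ S, extA a ∈ S') :
    (op (solExt : ProperClause (n + 1) k → _))^[m] nonemptyInd S
      ≤ (op (solSet : ProperClause (n + 1) k → _))^[m] nonemptyInd S' := by
  induction m generalizing S S' with
  | zero =>
    simp only [Function.iterate_zero, id]
    unfold nonemptyInd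
    by_cases hS : S.Nonempty
    · obtain ⟨a, ha⟩ := hS
      rw [if_pos ⟨a, ha⟩, if_pos ⟨extA a, h a ha⟩]
    · rw [if_neg hS]
      split_ifs <;> norm_num
  | succ m ih =>
    rw [Function.iterate_succ_apply', Function.iterate_succ_apply']
    unfold op
    apply div_le_div_of_nonneg_right _ (by positivity)
    refine Finset.sum_le_sum fun C _ => ih _ _ ?_
    intro a ha
    rw [Finset.mem_inter] at ha ⊢
    refine ⟨h a ha.1, ?_⟩
    have := ha.2
    simp only [solExt, Finset.mem_filter, Finset.mem_univ, true_and] at this
    simpa [solSet] using this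

/-- Satisfiable implies satisfiable after projecting away the last variable. -/
lemma full_le_proj {k : ℕ} (m : ℕ) (S : Finset (Fin n → Bool))
    (S' : Finset (Fin (n + 1) → Bool)) (h : ∀ a ∈ S', projA a ∈ S) :
    (op (solSet : ProperClause (n + 1) k → _))^[m] nonemptyInd S'
      ≤ (op (solProj : ProperClause (n + 1) k → _))^[m] nonemptyInd S := by
  induction m generalizing S S' with
  | zero =>
    simp only [Function.iterate_zero, id]
    unfold nonemptyInd
    by_cases hS : S'.Nonempty
    · obtain ⟨a, ha⟩ := hS
      rw [if_pos ⟨a, ha⟩, if_pos ⟨projA a, h a ha⟩]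
    · rw [if_neg hS]
      split_ifs <;> norm_num
  | succ m ih =>
    rw [Function.iterate_succ_apply', Function.iterate_succ_apply']
    unfold op
    apply div_le_div_of_nonneg_right _ (by positivity)
    refine Finset.sum_le_sum fun C _ => ih _ _ ?_
    intro a ha
    rw [Finset.mem_inter] at ha ⊢
    refine ⟨h a ha.1, ?_⟩
    have := ha.2
    simp only [solSet, Finset.mem_filter, Finset.mem_univ, true_and] at this
    simp only [solProj, Finset.mem_filter, Finset.mem_univ, true_and]
    exact ⟨a, rfl, this⟩

end Vale.Agent.Lib.P170
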